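import Mathlib.Analysis.Calculus.LocalExtr.Basic
import Mathlib.Analysis.Calculus.MeanValue
import Mathlib.Analysis.Calculus.Deriv.MeanValue
import Mathlib.Topology.Order.Compact
import Mathlib.Analysis.SpecialFunctions.Pow.Deriv

/-!
Maximum principles for singular first order equations `a f' + c f = s` on a closed interval at
whose endpoints `a` vanishes, and a comparison lemma for the singular second order initial value
problem `α z (1-z) φ'' + b φ' - d φ ≥ 0`.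
-/

namespace Vale.Agent.P224.R2.H876

open Set

/-- maximum principle: `a f' + c f ≤ 0`, `c > 0`, `a = 0` at both ends, then `f ≤ 0` -/
theorem nonpos_of_le {l r : ℝ} {a c f g : ℝ → ℝ} (hlr : l ≤ r)
    (hf : ContinuousOn f (Icc l r)) (hd : ∀ z ∈ Ioo l r, HasDerivAt f (g z) z)
    (hal : a l = 0) (har : a r = 0) (hc : ∀ z ∈ Icc l r, 0 < c z)
    (he : ∀ z ∈ Icc l r, a z * g z + c z * f z ≤ 0) : ∀ z ∈ Icc l r, f z ≤ 0 := by
  obtain ⟨w, hw, hmax⟩ := isCompact_Icc.exists_isMaxOn (nonempty_Icc.2 hlr) hf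
  have key : f w ≤ 0 := by
    have h1 : a w * g w = 0 := by
      rcases eq_or_lt_of_le hw.1 with h | h
      · rw [← h, hal, zero_mul]
      rcases eq_or_lt_of_le hw.2 with h' | h'
      · rw [h', har, zero_mul]
      · have hloc : IsLocalMax f w :=
          hmax.isLocalMax (Icc_mem_nhds h h')
        rw [hloc.hasDerivAt_eq_zero (hd w ⟨h, h'⟩), mul_zero]
    have h2 := he w hw
    rw [h1, zero_add] at h2
    by_contra hneg
    push Not at hneg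
    have := mul_pos (hc w hw) hneg
    linarith
  intro z hz
  exact (hmax hz).trans key

/-- comparison: `a f' + c f ≤ a F' + c F` implies `f ≤ F` -/
theorem le_of_le {l r : ℝ} {a c f g F G : ℝ → ℝ} (hlr : l ≤ r)
    (hf : ContinuousOn f (Icc l r)) (hd : ∀ z ∈ Ioo l r, HasDerivAt f (g z) z)
    (hF : ContinuousOn F (Icc l r)) (hD : ∀ z ∈ Ioo l r, HasDerivAt F (G z) z)
    (hal : a l = 0) (har : a r = 0) (hc : ∀ z ∈ Icc l r, 0 < c z)
    (he : ∀ z ∈ Icc l r, a z * g z + c z * f z ≤ a z * G z + c z * F z) :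
    ∀ z ∈ Icc l r, f z ≤ F z := by
  have h := nonpos_of_le (f := fun z => f z - F z) (g := fun z => g z - G z) (a := a) (c := c)
    hlr (hf.sub hF) (fun z hz => (hd z hz).sub (hD z hz)) hal har hc
    (fun z hz => by have := he z hz; nlinarith)
  intro z hz
  have := h z hz
  linarith

/-- `a f' + c f = s` with `s ≤ M c` gives `f ≤ M` -/
theorem le_const {l r M : ℝ} {a c f g s : ℝ → ℝ} (hlr : l ≤ r)
    (hf : ContinuousOn f (Icc l r)) (hd : ∀ z ∈ Ioo l r, HasDerivAt f (g z) z)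
    (hal : a l = 0) (har : a r = 0) (hc : ∀ z ∈ Icc l r, 0 < c z)
    (he : ∀ z ∈ Icc l r, a z * g z + c z * f z = s z) (hs : ∀ z ∈ Icc l r, s z ≤ M * c z) :
    ∀ z ∈ Icc l r, f z ≤ M :=
  le_of_le (F := fun _ => M) (G := fun _ => 0) hlr hf hd continuousOn_const
    (fun z _ => hasDerivAt_const z M) hal har hc
    (fun z hz => by rw [he z hz]; have := hs z hz; nlinarith)

/-- `a f' + c f = s` with `M c ≤ s` gives `M ≤ f` -/
theorem const_le {l r M : ℝ} {a c f g s : ℝ → ℝ} (hlr : l ≤ r)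
    (hf : ContinuousOn f (Icc l r)) (hd : ∀ z ∈ Ioo l r, HasDerivAt f (g z) z)
    (hal : a l = 0) (har : a r = 0) (hc : ∀ z ∈ Icc l r, 0 < c z)
    (he : ∀ z ∈ Icc l r, a z * g z + c z * f z = s z) (hs : ∀ z ∈ Icc l r, M * c z ≤ s z) :
    ∀ z ∈ Icc l r, M ≤ f z :=
  le_of_le (f := fun _ => M) (g := fun _ => 0) hlr continuousOn_const
    (fun z _ => hasDerivAt_const z M) hf hd hal har hc
    (fun z hz => by rw [he z hz]; have := hs z hz; nlinarith)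

/-- `a f' + c f = s` with `|s| ≤ M c` gives `|f| ≤ M` -/
theorem abs_le_const {l r M : ℝ} {a c f g s : ℝ → ℝ} (hlr : l ≤ r)
    (hf : ContinuousOn f (Icc l r)) (hd : ∀ z ∈ Ioo l r, HasDerivAt f (g z) z)
    (hal : a l = 0) (har : a r = 0) (hc : ∀ z ∈ Icc l r, 0 < c z)
    (he : ∀ z ∈ Icc l r, a z * g z + c z * f z = s z) (hs : ∀ z ∈ Icc l r, |s z| ≤ M * c z) :
    ∀ z ∈ Icc l r, |f z| ≤ M := by
  intro z hz
  rw [abs_le]
  constructor
  · exact const_le hlr hf hd hal har hc he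
      (fun z hz => by have := (abs_le.1 (hs z hz)).1; linarith) z hz
  · exact le_const hlr hf hd hal har hc he (fun z hz => (abs_le.1 (hs z hz)).2) z hz

/-- the form used for the `(k,l)` flow: `2 z (1-z) f' + c f = s` on `[0,1]` -/
theorem abs_le_unit {M : ℝ} {c f g s : ℝ → ℝ}
    (hf : ContinuousOn f (Icc 0 1)) (hd : ∀ z ∈ Ioo (0 : ℝ) 1, HasDerivAt f (g z) z)
    (hc : ∀ z ∈ Icc (0 : ℝ) 1, 0 < c z)
    (he : ∀ z ∈ Icc (0 : ℝ) 1, 2 * z * (1 - z) * g z + c z * f z = s z)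
    (hs : ∀ z ∈ Icc (0 : ℝ) 1, |s z| ≤ M * c z) :
    ∀ z ∈ Icc (0 : ℝ) 1, |f z| ≤ M :=
  abs_le_const (a := fun z => 2 * z * (1 - z)) zero_le_one hf hd (by simp) (by simp) hc he hs

/-- comparison on `[0,1]` for `2 z (1-z) f' + c f` -/
theorem le_unit {c f g F G : ℝ → ℝ}
    (hf : ContinuousOn f (Icc 0 1)) (hd : ∀ z ∈ Ioo (0 : ℝ) 1, HasDerivAt f (g z) z)
    (hF : ContinuousOn F (Icc 0 1)) (hD : ∀ z ∈ Ioo (0 : ℝ) 1, HasDerivAt F (G z) z)
    (hc : ∀ z ∈ Icc (0 : ℝ) 1, 0 < c z)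
    (he : ∀ z ∈ Icc (0 : ℝ) 1, 2 * z * (1 - z) * g z + c z * f z
      ≤ 2 * z * (1 - z) * G z + c z * F z) :
    ∀ z ∈ Icc (0 : ℝ) 1, f z ≤ F z :=
  le_of_le (a := fun z => 2 * z * (1 - z)) zero_le_one hf hd hF hD (by simp) (by simp) hc he

/-- **Initial value comparison.** `p > 0` on `(0,1)`, `ψ = p φ'` with `ψ → 0` at `0` (`ψ` continuous
on `[0,1)`, `ψ 0 = 0`), `ψ' ≥ q φ` with `q ≥ 0`, `φ 0 > 0`; then `φ` is nondecreasing, so `φ > 0`. -/
theorem pos_of_ivp {R : ℝ} {p q φ φ' ψ ψ' : ℝ → ℝ}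
    (hφ : ContinuousOn φ (Ico 0 R)) (hφd : ∀ z ∈ Ioo (0 : ℝ) R, HasDerivAt φ (φ' z) z)
    (hψ : ContinuousOn ψ (Ico 0 R)) (hψd : ∀ z ∈ Ioo (0 : ℝ) R, HasDerivAt ψ (ψ' z) z)
    (hψe : ∀ z ∈ Ioo (0 : ℝ) R, ψ z = p z * φ' z) (hp : ∀ z ∈ Ioo (0 : ℝ) R, 0 < p z)
    (hq : ∀ z ∈ Ioo (0 : ℝ) R, 0 ≤ q z) (hge : ∀ z ∈ Ioo (0 : ℝ) R, q z * φ z ≤ ψ' z)
    (hψ0 : 0 ≤ ψ 0) (hφ0 : 0 < φ 0) : ∀ z ∈ Ico (0 : ℝ) R, φ 0 ≤ φ z ∧ 0 ≤ ψ z := by
  -- on every `[0,t]` on which `φ ≥ 0` we have `φ ≥ φ 0`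
  have step : ∀ t ∈ Ico (0 : ℝ) R, (∀ z ∈ Ico (0 : ℝ) t, 0 ≤ φ z) →
      φ 0 ≤ φ t ∧ 0 ≤ ψ t := by
    intro t ht hpos
    have hsub : Icc 0 t ⊆ Ico 0 R := fun z hz => ⟨hz.1, hz.2.trans_lt ht.2⟩
    have mψ : MonotoneOn ψ (Icc 0 t) := by
      refine monotoneOn_of_deriv_nonneg (convex_Icc 0 t) (hψ.mono hsub) ?_ ?_
      · rw [interior_Icc]
        exact fun z hz => (hψd z ⟨hz.1, hz.2.trans ht.2⟩).differentiableAt.differentiableWithinAt
      · rw [interior_Icc]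
        intro z hz
        have hz' : z ∈ Ioo (0 : ℝ) R := ⟨hz.1, hz.2.trans ht.2⟩
        rw [(hψd z hz').deriv]
        exact (mul_nonneg (hq z hz') (hpos z ⟨hz.1.le, hz.2⟩)).trans (hge z hz')
    have hψn : ∀ z ∈ Icc 0 t, 0 ≤ ψ z := fun z hz =>
      hψ0.trans (mψ ⟨le_rfl, ht.1⟩ hz hz.1)
    have mφ : MonotoneOn φ (Icc 0 t) := by
      refine monotoneOn_of_deriv_nonneg (convex_Icc 0 t) (hφ.mono hsub) ?_ ?_
      · rw [interior_Icc]
        exact fun z hz => (hφd z ⟨hz.1, hz.2.trans ht.2⟩).differentiableAt.differentiableWithinAt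
      · rw [interior_Icc]
        intro z hz
        have hz' : z ∈ Ioo (0 : ℝ) R := ⟨hz.1, hz.2.trans ht.2⟩
        rw [(hφd z hz').deriv]
        have h1 := hψn z ⟨hz.1.le, hz.2.le⟩
        rw [hψe z hz'] at h1
        exact nonneg_of_mul_nonneg_right h1 (hp z hz')
    exact ⟨mφ ⟨le_rfl, ht.1⟩ ⟨ht.1, le_rfl⟩ ht.1, hψn t ⟨ht.1, le_rfl⟩⟩
  -- `φ ≥ 0` everywhere: otherwise take the infimum of the set where `φ < 0`
  have nonneg : ∀ z ∈ Ico (0 : ℝ) R, 0 ≤ φ z := by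
    by_contra hcon
    push Not at hcon
    obtain ⟨w, hw, hwn⟩ := hcon
    set S := {z | z ∈ Ico (0 : ℝ) R ∧ φ z < 0} with hS
    have hSne : S.Nonempty := ⟨w, hw, hwn⟩
    have hbdd : BddBelow S := ⟨0, fun z hz => hz.1.1⟩
    set t := sInf S with ht
    have ht0 : 0 ≤ t := le_csInf hSne fun z hz => hz.1.1
    have htw : t ≤ w := csInf_le hbdd ⟨hw, hwn⟩
    have htR : t ∈ Ico (0 : ℝ) R := ⟨ht0, htw.trans_lt hw.2⟩
    have hpos : ∀ z ∈ Ico (0 : ℝ) t, 0 ≤ φ z := by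
      intro z hz
      by_contra hneg
      push Not at hneg
      exact absurd (csInf_le hbdd ⟨⟨hz.1, hz.2.trans htR.2⟩, hneg⟩) (not_le.2 hz.2)
    have h1 := (step t htR hpos).1
    have h2 : 0 < φ t := hφ0.trans_le h1
    -- `φ > 0` near `t`, contradiction with the infimum
    have hcont := hφ t htR
    have h3 : ∀ᶠ z in nhdsWithin t (Ico 0 R), 0 < φ z := hcont.eventually (lt_mem_nhds h2)
    rw [eventually_nhdsWithin_iff, Metric.eventually_nhds_iff] at h3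
    obtain ⟨ε, hε, hball⟩ := h3
    obtain ⟨z, hzS, hz⟩ := exists_lt_of_csInf_lt hSne (show sInf S < t + ε by linarith)
    have hzt : t ≤ z := csInf_le hbdd hzS
    have := hball (show dist z t < ε by rw [Real.dist_eq, abs_of_nonneg (by linarith)]; linarith)
      hzS.1
    linarith [hzS.2]
  intro z hz
  exact step z hz fun y hy => nonneg y ⟨hy.1, hy.2.trans hz.2⟩

/-- **Comparison for the singular second order equation.** If
`4 z (1-z) φ'' + (b₀ - b₁ z) φ' ≥ d φ` on `(0,1)` with `b₀ > 0`, `d ≥ 0`, `φ, φ'` continuous on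
`[0,1]` and `φ 0 > 0`, then `φ ≥ φ 0` and `φ' ≥ 0` on `[0,1]`. -/
theorem pos_second {b₀ b₁ d : ℝ} (hb : 0 < b₀) (hdd : 0 ≤ d) {φ φ1 φ2 : ℝ → ℝ}
    (hφ : ContinuousOn φ (Icc 0 1)) (hφ1 : ContinuousOn φ1 (Icc 0 1))
    (h1 : ∀ z ∈ Ioo (0 : ℝ) 1, HasDerivAt φ (φ1 z) z)
    (h2 : ∀ z ∈ Ioo (0 : ℝ) 1, HasDerivAt φ1 (φ2 z) z)
    (hge : ∀ z ∈ Ioo (0 : ℝ) 1, d * φ z ≤ 4 * z * (1 - z) * φ2 z + (b₀ - b₁ * z) * φ1 z)
    (hφ0 : 0 < φ 0) : ∀ z ∈ Icc (0 : ℝ) 1, φ 0 ≤ φ z ∧ 0 ≤ φ1 z := by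
  set p : ℝ → ℝ := fun z => z ^ (b₀ / 4) * (1 - z) ^ ((b₁ - b₀) / 4) with hp
  have hppos : ∀ z ∈ Ioo (0 : ℝ) 1, 0 < p z := fun z hz =>
    mul_pos (Real.rpow_pos_of_pos hz.1 _) (Real.rpow_pos_of_pos (by linarith [hz.2]) _)
  have hpd : ∀ z ∈ Ioo (0 : ℝ) 1,
      HasDerivAt p (p z * ((b₀ - b₁ * z) / (4 * z * (1 - z)))) z := by
    intro z hz
    have hz1 : 0 < 1 - z := by linarith [hz.2]
    have e1 : HasDerivAt (fun z : ℝ => z ^ (b₀ / 4)) (b₀ / 4 * z ^ (b₀ / 4 - 1)) z :=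
      Real.hasDerivAt_rpow_const (Or.inl hz.1.ne')
    have e2 : HasDerivAt (fun z : ℝ => (1 - z) ^ ((b₁ - b₀) / 4))
        (-1 * ((b₁ - b₀) / 4) * (1 - z) ^ ((b₁ - b₀) / 4 - 1)) z :=
      (((hasDerivAt_id z).const_sub 1).rpow_const (Or.inl hz1.ne'))
    refine (e1.mul e2).congr_deriv ?_
    rw [Real.rpow_sub_one hz.1.ne', Real.rpow_sub_one hz1.ne']
    simp only [hp]
    have hz0 := hz.1.ne'
    have hz1' := hz1.ne'
    field_simp
    ring
  have hpcont : ContinuousOn p (Ico 0 1) := by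
    refine ContinuousOn.mul ?_ ?_
    · exact (Real.continuous_rpow_const (by positivity)).continuousOn
    · exact (continuousOn_const.sub continuousOn_id).rpow_const
        fun z hz => Or.inl (by have := hz.2; change 1 - z ≠ 0; linarith)
  have hIco : Ico (0 : ℝ) 1 ⊆ Icc 0 1 := Ico_subset_Icc_self
  have key := pos_of_ivp (R := 1) (p := p) (q := fun z => p z * d / (4 * z * (1 - z)))
    (φ := φ) (φ' := φ1) (ψ := fun z => p z * φ1 z)
    (ψ' := fun z => p z * ((b₀ - b₁ * z) / (4 * z * (1 - z))) * φ1 z + p z * φ2 z)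
    (hφ.mono hIco) h1 (hpcont.mul (hφ1.mono hIco)) (fun z hz => (hpd z hz).mul (h2 z hz))
    (fun z _ => rfl) hppos
    (fun z hz => by
      have := hppos z hz
      have h4 : 0 < 4 * z * (1 - z) := by
        have := hz.1
        have : 0 < 1 - z := by linarith [hz.2]
        positivity
      positivity)
    (fun z hz => by
      have h3 := hppos z hz
      have h4 : 0 < 4 * z * (1 - z) := by
        have := hz.1
        have : 0 < 1 - z := by linarith [hz.2]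
        positivity
      have h5 := hge z hz
      have e : p z * ((b₀ - b₁ * z) / (4 * z * (1 - z))) * φ1 z + p z * φ2 z
          = p z / (4 * z * (1 - z)) * (4 * z * (1 - z) * φ2 z + (b₀ - b₁ * z) * φ1 z) := by
        have h6 : p z / (4 * z * (1 - z)) * (4 * z * (1 - z)) = p z := div_mul_cancel₀ _ h4.ne'
        rw [mul_add, ← mul_assoc, h6]
        ring
      have e' : p z * d / (4 * z * (1 - z)) * φ z = p z / (4 * z * (1 - z)) * (d * φ z) := by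
        ring
      simp only [e, e']
      exact mul_le_mul_of_nonneg_left h5 (by positivity))
    (by simp only [hp, Real.zero_rpow (show b₀ / 4 ≠ 0 by positivity), zero_mul]; exact le_rfl)
    hφ0
  have hin : ∀ z ∈ Ioo (0 : ℝ) 1, φ 0 ≤ φ z ∧ 0 ≤ φ1 z := by
    intro z hz
    obtain ⟨k1, k2⟩ := key z ⟨hz.1.le, hz.2⟩
    exact ⟨k1, nonneg_of_mul_nonneg_right k2 (hppos z hz)⟩
  have hcl : Icc (0 : ℝ) 1 ⊆ closure (Ioo 0 1) := by
    rw [closure_Ioo zero_ne_one]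
  intro z hz
  constructor
  · exact ContinuousWithinAt.closure_le (s := Ioo 0 1) (f := fun _ => φ 0) (g := φ) (hcl hz)
      continuousWithinAt_const ((hφ z hz).mono Ioo_subset_Icc_self) fun y hy => (hin y hy).1
  · exact ContinuousWithinAt.closure_le (s := Ioo 0 1) (f := fun _ => 0) (g := φ1) (hcl hz)
      continuousWithinAt_const ((hφ1 z hz).mono Ioo_subset_Icc_self) fun y hy => (hin y hy).2

/-- Weak version, with a reference solution `y` of the homogeneous inequality. -/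
theorem nonneg_second {b₀ b₁ d : ℝ} (hb : 0 < b₀) (hdd : 0 ≤ d) {φ φ1 φ2 y y1 y2 : ℝ → ℝ}
    (hφ : ContinuousOn φ (Icc 0 1)) (hφ1 : ContinuousOn φ1 (Icc 0 1))
    (h1 : ∀ z ∈ Ioo (0 : ℝ) 1, HasDerivAt φ (φ1 z) z)
    (h2 : ∀ z ∈ Ioo (0 : ℝ) 1, HasDerivAt φ1 (φ2 z) z)
    (hge : ∀ z ∈ Ioo (0 : ℝ) 1, d * φ z ≤ 4 * z * (1 - z) * φ2 z + (b₀ - b₁ * z) * φ1 z)
    (hy : ContinuousOn y (Icc 0 1)) (hy1 : ContinuousOn y1 (Icc 0 1))
    (k1 : ∀ z ∈ Ioo (0 : ℝ) 1, HasDerivAt y (y1 z) z)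
    (k2 : ∀ z ∈ Ioo (0 : ℝ) 1, HasDerivAt y1 (y2 z) z)
    (kge : ∀ z ∈ Ioo (0 : ℝ) 1, d * y z ≤ 4 * z * (1 - z) * y2 z + (b₀ - b₁ * z) * y1 z)
    (hy0 : 0 < y 0) (hφ0 : 0 ≤ φ 0) : ∀ z ∈ Icc (0 : ℝ) 1, φ 0 ≤ φ z ∧ 0 ≤ φ1 z := by
  have main : ∀ ε > 0, ∀ z ∈ Icc (0 : ℝ) 1,
      φ 0 + ε * y 0 ≤ φ z + ε * y z ∧ 0 ≤ φ1 z + ε * y1 z := by
    intro ε hε
    refine pos_second (b₁ := b₁) (φ := fun z => φ z + ε * y z) (φ1 := fun z => φ1 z + ε * y1 z)
      (φ2 := fun z => φ2 z + ε * y2 z) hb hdd (hφ.add (hy.const_smul ε))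
      (hφ1.add (hy1.const_smul ε)) (fun z hz => (h1 z hz).add ((k1 z hz).const_mul ε))
      (fun z hz => (h2 z hz).add ((k2 z hz).const_mul ε)) ?_ ?_
    · intro z hz
      have a1 := hge z hz
      have a2 := mul_le_mul_of_nonneg_left (kge z hz) hε.le
      nlinarith
    · positivity
  intro z hz
  constructor
  · refine le_of_forall_pos_le_add fun δ hδ => ?_
    have hd1 : 0 < |y z| + 1 := by positivity
    have := (main (δ / (|y z| + 1)) (by positivity) z hz).1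
    have e1 : δ / (|y z| + 1) * y z ≤ δ := by
      rw [div_mul_eq_mul_div, div_le_iff₀ hd1]
      nlinarith [le_abs_self (y z)]
    have e2 : 0 ≤ δ / (|y z| + 1) * y 0 := by positivity
    linarith
  · refine le_of_forall_pos_le_add fun δ hδ => ?_
    have hd1 : 0 < |y1 z| + 1 := by positivity
    have := (main (δ / (|y1 z| + 1)) (by positivity) z hz).2
    have e1 : δ / (|y1 z| + 1) * y1 z ≤ δ := by
      rw [div_mul_eq_mul_div, div_le_iff₀ hd1]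
      nlinarith [le_abs_self (y1 z)]
    linarith

end Vale.Agent.P224.R2.H876
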