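import Vale.Agent.P224.R2.H876.TlView

/-!
The relative tail bound at level `T` (deterministic lemma and integration). `z` is the residual of
the normal with respect to a symmetric linear map, `z = n - J p`.
-/

namespace Vale.Agent.P224.R2.H876

open MeasureTheory Set Function Module Vale.Agent.P224 Vale.Agent.P224.SM2
  Vale.Agent.P224.R2.H869 Vale.Agent.P224.R2.H582 Vale.Agent.P224.R2.H484
  Vale.Agent.P224.R2.H728
open scoped RealInnerProductSpace

set_option linter.unusedSectionVars false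

section

variable {X : Type*} [MeasurableSpace X] {E : Type*} [NormedAddCommGroup E]
  [InnerProductSpace ℝ E] [MeasurableSpace E] [BorelSpace E] [SecondCountableTopology E]
  {μ : Measure X} [IsFiniteMeasure μ] {m : ℕ} {p n z : X → E}

/-- the normalised linear form of a field at a pair -/
noncomputable def pf (m : ℕ) (T : ℝ) (p g : X → E) (q : X × X) : ℝ :=
  √m * (√(1 - T ^ 2) * ⟪g q.2, p q.1⟫ / (1 - T * ⟪p q.1, p q.2⟫))

/-- the integrand of the two views -/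
noncomputable def Phi (m : ℕ) (T l u η : ℝ) (p n z : X → E) (q : X × X) : ℝ :=
  wt m T (p q.1) (p q.2) * PhX l u (pf m T p n q) (pf m T p z q)
    + wt m T (p q.1) (p q.2) * PhY l u η (pf m T p n q) (pf m T p z q)

/-- the shift -/
noncomputable def sh (m : ℕ) (T : ℝ) (p z : X → E) (y : X) : ℝ :=
  √m * (T * |⟪z y, p y⟫| / √(1 - T ^ 2))

/-- the size of `z` at level `T` -/
noncomputable def dz (T : ℝ) (p z : X → E) (y : X) : ℝ :=
  √(‖z y‖ ^ 2 + T ^ 2 / (1 - T ^ 2) * ⟪z y, p y⟫ ^ 2)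

lemma bm_pf (hp : FV.Pts p n) {T : ℝ} (hT : T ∈ Ico (0 : ℝ) 1) {g : X → E} (hg : Measurable g)
    {B : ℝ} (hB : ∀ x, ‖g x‖ ≤ B) : BM (pf m T p g) := by
  have mp1 : Measurable (fun q : X × X => p q.1) := hp.mp.comp measurable_fst
  have mp2 : Measurable (fun q : X × X => p q.2) := hp.mp.comp measurable_snd
  have mg2 : Measurable (fun q : X × X => g q.2) := hg.comp measurable_snd
  have b1 : BM (fun q : X × X => ⟪p q.1, p q.2⟫) :=
    bm_inner mp1 mp2 (fun q => (hp.np q.1).le) (fun q => (hp.np q.2).le)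
  have b2 : BM (fun q : X × X => ⟪g q.2, p q.1⟫) :=
    bm_inner mg2 mp1 (fun q => hB q.2) (fun q => (hp.np q.1).le)
  have b3 : BM (fun q : X × X => (1 - T * ⟪p q.1, p q.2⟫)⁻¹) :=
    bm_inv (c := 1 - T) (by linarith [hT.2]) ((BM.const 1).sub (b1.const_mul T))
      (fun q => v_ge hT (hp.np q.1) (hp.np q.2))
  have b4 := ((b2.const_mul (√(1 - T ^ 2))).mul b3).const_mul (√m)
  have e : pf m T p g = fun q : X × X => √m * (√(1 - T ^ 2) * ⟪g q.2, p q.1⟫
      * (1 - T * ⟪p q.1, p q.2⟫)⁻¹) := by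
    funext q
    unfold pf
    rw [div_eq_mul_inv]
  rw [e]
  exact b4

lemma bm_wt2 (hp : FV.Pts p n) {T : ℝ} (hT : T ∈ Ico (0 : ℝ) 1) :
    BM (fun q : X × X => wt m T (p q.1) (p q.2)) := by
  have mp1 : Measurable (fun q : X × X => p q.1) := hp.mp.comp measurable_fst
  have mp2 : Measurable (fun q : X × X => p q.2) := hp.mp.comp measurable_snd
  have b1 : BM (fun q : X × X => ⟪p q.1, p q.2⟫) :=
    bm_inner mp1 mp2 (fun q => (hp.np q.1).le) (fun q => (hp.np q.2).le)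
  have b2 : BM (fun q : X × X => (1 - T * ⟪p q.1, p q.2⟫) ^ (m - 1)) :=
    ((BM.const 1).sub (b1.const_mul T)).pow _
  exact (bm_inv (c := (1 - T) ^ (m - 1)) (pow_pos (by linarith [hT.2]) _) b2
    (fun q => pow_le_pow_left₀ (by linarith [hT.2]) (v_ge hT (hp.np q.1) (hp.np q.2)) _)).const_mul _

lemma bm_PhX {Ω : Type*} [MeasurableSpace Ω] {f g : Ω → ℝ} (hf : BM f) (hg : BM g) (l u : ℝ) :
    BM (fun ω => PhX l u (f ω) (g ω)) := by
  unfold PhX
  have h1 := ((hf.pow 2).const_mul 4).mul (bm_max ((hf.pow 2).sub (BM.const l)) (BM.const 0))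
  have h2 := ((hg.const_mul u⁻¹).pow 2)
  have h3 := h1.mul h2
  refine ⟨?_, ?_⟩
  · have := h3.1
    simpa only [div_eq_inv_mul] using this
  · have := h3.2
    simpa only [div_eq_inv_mul] using this

lemma bm_PhY {Ω : Type*} [MeasurableSpace Ω] {f g : Ω → ℝ} (hf : BM f) (hg : BM g) (l u η : ℝ) :
    BM (fun ω => PhY l u η (f ω) (g ω)) := by
  unfold PhY
  exact ((hg.pow 2).const_mul _).mul (bm_max ((((hg.mul hf).sub (hf.pow 2)).add
    ((bm_abs hf).const_mul u)).sub (BM.const l)) (BM.const 0))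

lemma bm_Phi (hp : FV.Pts p n) {T : ℝ} (hT : T ∈ Ico (0 : ℝ) 1) (hz : Measurable z) {B : ℝ}
    (hB : ∀ x, ‖z x‖ ≤ B) (l u η : ℝ) : BM (Phi m T l u η p n z) := by
  have b1 := bm_pf (m := m) hp hT hp.mn (fun x => (hp.nn x).le)
  have b2 := bm_pf (m := m) hp hT hz hB
  have b3 := bm_wt2 (m := m) hp hT
  exact (b3.mul (bm_PhX b1 b2 l u)).add (b3.mul (bm_PhY b1 b2 l u η))

lemma wt_comm (T : ℝ) (x y : E) : wt m T x y = wt m T y x := by
  unfold wt
  rw [real_inner_comm]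

/-- the pointwise bound -/
lemma TK_le_Phi (h2 : Two μ m p n) (hm : 1 ≤ m) {T : ℝ} (hT : T ∈ Ico (0 : ℝ) 1)
    (hsym : ∀ x y, ⟪n x, p y⟫ - ⟪p x, n y⟫ = ⟪z x, p y⟫ - ⟪p x, z y⟫) {l u η : ℝ} (hl : 0 < l)
    (hu : 0 < u) (hη : 0 ≤ η) (hηu : u ≤ η * (2 * √l - u)) (q : X × X) :
    √(1 - T ^ 2) ^ (m + 1) * TK m T l (SM2.pr p n q)
      ≤ 1 / m * (Phi m T l u η p n z q + Phi m T l u η p n z q.swap) := by
  have hk := k_pos hT
  have hs := Real.sqrt_pos.2 hk
  have hs2 : √(1 - T ^ 2) * √(1 - T ^ 2) = 1 - T ^ 2 := Real.mul_self_sqrt hk.le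
  have hm0 : (0 : ℝ) < m := by exact_mod_cast hm
  have hsm := Real.sqrt_pos.2 hm0
  have hsm2 : √(m : ℝ) * √(m : ℝ) = m := Real.mul_self_sqrt hm0.le
  obtain ⟨x, y⟩ := q
  have hv := v_pos hT (h2.np x) (h2.np y)
  set κ := √(1 - T ^ 2) with hκ
  set v := 1 - T * ⟪p x, p y⟫ with hvdef
  set r := √(m : ℝ) with hr
  have hv' : 1 - T * ⟪p y, p x⟫ = v := by rw [real_inner_comm, hvdef]
  set P := pf m T p n (y, x) with hP
  set U := pf m T p z (y, x) with hU
  set Q := pf m T p n (x, y) with hQ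
  set V := pf m T p z (x, y) with hV
  have eP : P = r * (κ * ⟪n x, p y⟫ / v) := by rw [hP]; unfold pf; simp only; rw [hv']
  have eU : U = r * (κ * ⟪z x, p y⟫ / v) := by rw [hU]; unfold pf; simp only; rw [hv']
  have eQ : Q = r * (κ * ⟪n y, p x⟫ / v) := by rw [hQ]; unfold pf; simp only; rw [hvdef]
  have eV : V = r * (κ * ⟪z y, p x⟫ / v) := by rw [hV]; unfold pf; simp only; rw [hvdef]
  have hPQ : P - Q = U - V := by
    have h := hsym x y
    rw [real_inner_comm (n y) (p x), real_inner_comm (z y) (p x)] at h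
    rw [eP, eQ, eU, eV]
    have e1 : ∀ a b : ℝ, r * (κ * a / v) - r * (κ * b / v) = r * (κ / v) * (a - b) := fun a b => by
      ring
    rw [e1, e1, h]
  have hd := det hPQ hl hu hη hηu
  have hw0 := wt_nonneg (m := m) hT (h2.np x) (h2.np y)
  have hd2 := mul_le_mul_of_nonneg_left hd hw0
  have e3 : √(1 - T ^ 2) ^ (m + 1) * TK m T l (SM2.pr p n (x, y))
      = 1 / m * (wt m T (p x) (p y) * ((P - Q) ^ 2 * max (-(P * Q) - l) 0)) := by
    obtain ⟨k, rfl⟩ : ∃ k, m = k + 1 := ⟨m - 1, by omega⟩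
    unfold TK Xk Yk SM2.pr wt
    simp only [Nat.add_sub_cancel]
    rw [← hvdef, ← hκ]
    have e4 : -(P * Q) = -(((k + 1 : ℕ) : ℝ) * (1 - T ^ 2) * (⟪n x, p y⟫ * ⟪p x, n y⟫) / v ^ 2) := by
      rw [eP, eQ, real_inner_comm (p x) (n y), ← hs2, ← hsm2]
      field_simp
    have e5 : (P - Q) ^ 2 = ((k + 1 : ℕ) : ℝ) * (κ * κ) * (⟪n x, p y⟫ - ⟪p x, n y⟫) ^ 2 / v ^ 2 := by
      rw [eP, eQ, real_inner_comm (p x) (n y), ← hsm2]
      field_simp
    rw [e4, e5]
    have e6 : ker T (k + 1 + 1) ⟪p x, p y⟫ = (v ^ k)⁻¹ / v ^ 2 := by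
      unfold ker
      rw [← hvdef, show k + 1 + 1 = k + 2 by ring, pow_add, mul_inv, div_eq_mul_inv]
    rw [e6, pow_succ κ (k + 1), pow_succ κ k]
    field_simp
  rw [e3]
  refine mul_le_mul_of_nonneg_left (hd2.trans (le_of_eq ?_)) (by positivity)
  unfold Phi
  simp only [Prod.swap_prod_mk]
  rw [← hP, ← hU, ← hQ, ← hV, wt_comm T (p y) (p x)]
  ring

/-- the norm of the direction of the quadratic bound -/
lemma norm_w_sq {T : ℝ} (hT : T ∈ Ico (0 : ℝ) 1) {y N w : E} (hy : ‖y‖ = 1) (hN : ‖N‖ = 1)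
    (hNy : ⟪N, y⟫ = 0) {C : ℝ} (hC : 0 < C) :
    ‖C • N - C⁻¹ • (N - ((w - ⟪w, y⟫ • y) + (⟪w, y⟫ / √(1 - T ^ 2)) • y))‖ ^ 2
      = C ^ 2 - 2 * (1 - ⟪N, w⟫)
        + (1 - 2 * ⟪N, w⟫ + (‖w‖ ^ 2 + T ^ 2 / (1 - T ^ 2) * ⟪w, y⟫ ^ 2)) / C ^ 2 := by
  set c : E := (w - ⟪w, y⟫ • y) + (⟪w, y⟫ / √(1 - T ^ 2)) • y with hc
  have h1 : ⟪N, c⟫ = ⟪N, w⟫ := by
    rw [hc, inner_add_right, inner_sub_right, real_inner_smul_right, real_inner_smul_right, hNy]
    ring
  have h2 : ‖c‖ ^ 2 = ‖w‖ ^ 2 + T ^ 2 / (1 - T ^ 2) * ⟪w, y⟫ ^ 2 := norm_affine_sq hT hy w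
  rw [norm_sub_sq_real, norm_smul, norm_smul, mul_pow, mul_pow, real_inner_smul_left,
    real_inner_smul_right, inner_sub_right, norm_sub_sq_real, h1, h2, real_inner_self_eq_norm_sq,
    hN, Real.norm_eq_abs, Real.norm_eq_abs, sq_abs, sq_abs]
  field_simp

/-- the relative tail bound at level `T`; the powers `i y`, `j y` may depend on the point -/
theorem tl_level (h2 : Two μ m p n) {M : ℕ → ℝ} (hM : MomB μ m p M) (hM0 : ∀ q, 0 ≤ M q)
    (hm : 1 ≤ m) (hz : Measurable z) {B : ℝ} (hB : ∀ x, ‖z x‖ ≤ B)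
    (hsym : ∀ x y, ⟪n x, p y⟫ - ⟪p x, n y⟫ = ⟪z x, p y⟫ - ⟪p x, z y⟫)
    {T : ℝ} (hT : T ∈ Ico (0 : ℝ) 1) {l u η : ℝ} (hl : 0 < l)
    (hu : 0 < u) (hη : 0 ≤ η) (hηu : u ≤ η * (2 * √l - u)) (i j : X → ℕ) {C lam H : X → ℝ}
    (hC : ∀ y, 0 < C y)
    (hlam : ∀ y, C y ^ 2 - 2 * (1 - ⟪n y, z y⟫) + (1 - 2 * ⟪n y, z y⟫ + dz T p z y ^ 2) / C y ^ 2
      ≤ 4 * lam y)
    (hHi : Integrable H μ)
    (hH : ∀ y, XV M (i y) l u (sh m T p z y) (dz T p z y)
      + YV M (j y) l u η (sh m T p z y) (dz T p z y) (lam y) ≤ H y) :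
    √(1 - T ^ 2) ^ (m + 1) * E2 μ p n (TK m T l) ≤ μ.real univ * (2 / m * ∫ y, H y ∂μ) := by
  have hp : FV.Pts p n := h2.toPts
  have hm0 : (0 : ℝ) < m := by exact_mod_cast hm
  have hA : 0 ≤ μ.real univ := measureReal_nonneg
  have bP := bm_Phi (m := m) hp hT hz hB l u η
  have iP := bP.int (μ := μ.prod μ)
  have iPs : Integrable (fun q : X × X => Phi m T l u η p n z q.swap) (μ.prod μ) := iP.swap
  -- the pair integral
  have h1 : √(1 - T ^ 2) ^ (m + 1) * E2 μ p n (TK m T l)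
      ≤ 1 / m * (2 * ∫ q, Phi m T l u η p n z q ∂(μ.prod μ)) := by
    unfold E2
    rw [← integral_const_mul]
    have iS : Integrable (fun q : X × X => 1 / (m : ℝ) * (Phi m T l u η p n z q
        + Phi m T l u η p n z q.swap)) (μ.prod μ) := (iP.add iPs).const_mul (1 / (m : ℝ))
    refine (integral_mono ((int_E2 h2 (measurable_TK m T l) (contOn_TK hT m l)).const_mul _)
      iS fun q => TK_le_Phi h2 hm hT hsym hl hu hη hηu q).trans (le_of_eq ?_)
    rw [integral_const_mul]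
    congr 1
    have e1 : ∫ q : X × X, Phi m T l u η p n z q.swap ∂(μ.prod μ)
        = ∫ q, Phi m T l u η p n z q ∂(μ.prod μ) := integral_prod_swap _
    have e2 : ∫ q : X × X, (Phi m T l u η p n z q + Phi m T l u η p n z q.swap)
        ∂(μ.prod μ) = ∫ q, Phi m T l u η p n z q ∂(μ.prod μ)
          + ∫ q : X × X, Phi m T l u η p n z q.swap ∂(μ.prod μ) := integral_add iP iPs
    rw [e2, e1]
    ring
  -- the fixed point bound
  have h3 : ∀ y, ∫ x, Phi m T l u η p n z (x, y) ∂μ ≤ μ.real univ * H y := by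
    intro y
    have hy := h2.np y
    have hN := h2.nn y
    have hNy : ⟪n y, p y⟫ = 0 := by rw [real_inner_comm]; exact h2.pn y
    set c : E := (z y - ⟪z y, p y⟫ • p y) + (⟪z y, p y⟫ / √(1 - T ^ 2)) • p y with hc
    set s' : ℝ := √m * (T * ⟪z y, p y⟫ / √(1 - T ^ 2)) with hs'
    have hk := k_pos hT
    have hsk := Real.sqrt_pos.2 hk
    have hs : |s'| ≤ sh m T p z y := by
      rw [hs']
      unfold sh
      rw [abs_mul, abs_div, abs_mul, abs_of_nonneg hT.1, abs_of_pos hsk,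
        abs_of_nonneg (Real.sqrt_nonneg _)]
    have hcn : ‖c‖ = dz T p z y := by
      unfold dz
      rw [← norm_affine_sq hT hy (z y), ← hc, Real.sqrt_sq (norm_nonneg _)]
    have eQ : ∀ x, pf m T p n (x, y) = xi m T (p y) (n y) (p x) := by
      intro x
      unfold pf xi
      rw [inner_mob_perp hT (h2.np x) hy hNy]
    have eV : ∀ x, pf m T p z (x, y) = xi m T (p y) c (p x) + s' := by
      intro x
      unfold pf xi
      simp only
      rw [inner_affine hT (h2.np x) hy (z y), mul_add]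
    have b1 := bm_xi (m := m) hp hT hy (n y)
    have b2 := (bm_xi (m := m) hp hT hy c).add (BM.const s')
    have bw := bm_wt (m := m) hp hT hy
    have i1 := (bw.mul (bm_PhX b1 b2 l u)).int (μ := μ)
    have i2 := (bw.mul (bm_PhY b1 b2 l u η)).int (μ := μ)
    have e3 : ∫ x, Phi m T l u η p n z (x, y) ∂μ
        = ∫ x, wt m T (p x) (p y) * PhX l u (xi m T (p y) (n y) (p x)) (xi m T (p y) c (p x) + s') ∂μ
        + ∫ x, wt m T (p x) (p y) * PhY l u η (xi m T (p y) (n y) (p x))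
          (xi m T (p y) c (p x) + s') ∂μ := by
      rw [← integral_add i1 i2]
      refine integral_congr_ae (Filter.Eventually.of_forall fun x => ?_)
      simp only
      unfold Phi
      simp only
      rw [eQ, eV]
    have hl4 := hlam y
    have hw := norm_w_sq (w := z y) hT hy hN hNy (hC y)
    rw [← hc] at hw
    have hdz : dz T p z y ^ 2 = ‖z y‖ ^ 2 + T ^ 2 / (1 - T ^ 2) * ⟪z y, p y⟫ ^ 2 := by
      rw [← hcn, hc, norm_affine_sq hT hy (z y)]
    rw [hdz, ← hw] at hl4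
    have v1 := hM.xview hp hT hy hN (i y) hl hu hs (c := c)
    have v2 := hM.yview hM0 hp hT hy hN (j y) hl hu hs (hC y) hl4 (η := η)
    rw [hcn] at v1 v2
    rw [e3]
    have v3 := mul_le_mul_of_nonneg_left (hH y) hA
    linarith
  have h4 : ∫ q, Phi m T l u η p n z q ∂(μ.prod μ) ≤ μ.real univ * ∫ y, H y ∂μ := by
    rw [integral_prod_symm _ iP, ← integral_const_mul]
    refine integral_mono_of_nonneg (Filter.Eventually.of_forall fun y =>
      integral_nonneg fun x => ?_) (hHi.const_mul _) (Filter.Eventually.of_forall h3)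
    unfold Phi
    have hw0 := wt_nonneg (m := m) hT (h2.np x) (h2.np y)
    exact add_nonneg (mul_nonneg hw0 (PhX_nonneg _ _ _ _)) (mul_nonneg hw0 (PhY_nonneg _ _ _ _ _))
  refine h1.trans ?_
  have h5 := mul_le_mul_of_nonneg_left h4 (by positivity : (0 : ℝ) ≤ 1 / m * 2)
  calc 1 / (m : ℝ) * (2 * ∫ q, Phi m T l u η p n z q ∂(μ.prod μ))
      = 1 / m * 2 * ∫ q, Phi m T l u η p n z q ∂(μ.prod μ) := by ring
    _ ≤ 1 / m * 2 * (μ.real univ * ∫ y, H y ∂μ) := h5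
    _ = _ := by ring

end

end Vale.Agent.P224.R2.H876
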