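import Vale.Agent.P224.R2.H876.TlView2
import Vale.Agent.P224.R2.H876.TlTab

/-!
The relative tail bound at level `T` with the smooth cut.
-/

namespace Vale.Agent.P224.R2.H876

open MeasureTheory Set Function Module Vale.Agent.P224 Vale.Agent.P224.SM2
  Vale.Agent.P224.R2.H869 Vale.Agent.P224.R2.H582 Vale.Agent.P224.R2.H484
  Vale.Agent.P224.R2.H728
open scoped RealInnerProductSpace

set_option linter.unusedSectionVars false

section

variable {X : Type*} [MeasurableSpace X] {E : Type*} [NormedAddCommGroup E]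
  [InnerProductSpace ℝ E] [MeasurableSpace E] [BorelSpace E] [SecondCountableTopology E]
  {μ : Measure X} [IsFiniteMeasure μ] {m : ℕ} {p n z : X → E}

/-- the integrand -/
noncomputable def Phi2 (m : ℕ) (T l η β : ℝ) (p n z : X → E) (q : X × X) : ℝ :=
  wt m T (p q.1) (p q.2) * G1 l η (pf m T p n q.swap) (pf m T p n q) (pf m T p z q.swap)
      (pf m T p z q)
    + wt m T (p q.1) (p q.2) * G2 l η β (pf m T p n q) (pf m T p z q)

section bm

variable {Ω : Type*} [MeasurableSpace Ω] {f g h k : Ω → ℝ}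

lemma bm_div (hf : BM f) (c : ℝ) : BM (fun ω => f ω / c) := by
  have := hf.const_mul c⁻¹
  simpa only [div_eq_inv_mul] using this

lemma bm_G1 (hf : BM f) (hg : BM g) (hh : BM h) (hk : BM k) (l η : ℝ) :
    BM (fun ω => G1 l η (f ω) (g ω) (h ω) (k ω)) := by
  have b1 := (bm_max (((hf.sub hg).pow 2).sub ((bm_div hh η).pow 2)) (BM.const 0)).mul
    (bm_max (((hf.mul hg).const_mul (-1)).sub (BM.const l)) (BM.const 0))
  have b2 : BM (fun ω => max ((f ω - g ω) ^ 2 - (h ω / η) ^ 2) 0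
      * max (-(f ω * g ω) - l) 0) := by
    simpa only [neg_one_mul] using b1
  obtain ⟨m1, C, hC⟩ := b2
  refine ⟨?_, C, fun ω => ?_⟩
  · unfold G1
    exact Measurable.ite (measurableSet_le hh.1.norm hk.1.norm) m1 measurable_const
  · unfold G1
    beta_reduce
    split_ifs
    · exact hC ω
    · rw [abs_zero]
      exact (abs_nonneg _).trans (hC ω)

lemma bm_G2 (hf : BM f) (hg : BM g) (l η β : ℝ) : BM (fun ω => G2 l η β (f ω) (g ω)) := by
  unfold G2
  exact (((hg.pow 2).const_mul _).mul (bm_max (((hf.pow 2).const_mul β).sub (BM.const l))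
    (BM.const 0))).add (((hg.pow 2).const_mul 2).mul
      (bm_max ((bm_div (hf.pow 2) β).sub (BM.const l)) (BM.const 0)))

lemma bm_swap {f : X × X → ℝ} (hf : BM f) : BM (fun q : X × X => f q.swap) := by
  obtain ⟨h1, C, h2⟩ := hf
  exact ⟨h1.comp measurable_swap, C, fun q => h2 _⟩

end bm

lemma bm_Phi2 (hp : FV.Pts p n) {T : ℝ} (hT : T ∈ Ico (0 : ℝ) 1) (hz : Measurable z) {B : ℝ}
    (hB : ∀ x, ‖z x‖ ≤ B) (l η β : ℝ) : BM (Phi2 m T l η β p n z) := by
  have b1 := bm_pf (m := m) hp hT hp.mn (fun x => (hp.nn x).le)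
  have b2 := bm_pf (m := m) hp hT hz hB
  have b3 := bm_wt2 (m := m) hp hT
  exact (b3.mul (bm_G1 (bm_swap b1) b1 (bm_swap b2) b2 l η)).add (b3.mul (bm_G2 b1 b2 l η β))

/-- the pointwise bound -/
lemma TK_le_Phi2 (h2 : Two μ m p n) (hm : 1 ≤ m) {T : ℝ} (hT : T ∈ Ico (0 : ℝ) 1)
    (hsym : ∀ x y, ⟪n x, p y⟫ - ⟪p x, n y⟫ = ⟪z x, p y⟫ - ⟪p x, z y⟫) {l η β : ℝ}
    (hη : 0 < η) (hβ : 0 < β) (q : X × X) :
    √(1 - T ^ 2) ^ (m + 1) * TK m T l (SM2.pr p n q)
      ≤ 1 / m * (Phi2 m T l η β p n z q + Phi2 m T l η β p n z q.swap) := by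
  have hk := k_pos hT
  have hs := Real.sqrt_pos.2 hk
  have hs2 : √(1 - T ^ 2) * √(1 - T ^ 2) = 1 - T ^ 2 := Real.mul_self_sqrt hk.le
  have hm0 : (0 : ℝ) < m := by exact_mod_cast hm
  have hsm := Real.sqrt_pos.2 hm0
  have hsm2 : √(m : ℝ) * √(m : ℝ) = m := Real.mul_self_sqrt hm0.le
  obtain ⟨x, y⟩ := q
  have hv := v_pos hT (h2.np x) (h2.np y)
  set κ := √(1 - T ^ 2) with hκ
  set v := 1 - T * ⟪p x, p y⟫ with hvdef
  set r := √(m : ℝ) with hr
  have hv' : 1 - T * ⟪p y, p x⟫ = v := by rw [real_inner_comm, hvdef]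
  set P := pf m T p n (y, x) with hP
  set U := pf m T p z (y, x) with hU
  set Q := pf m T p n (x, y) with hQ
  set V := pf m T p z (x, y) with hV
  have eP : P = r * (κ * ⟪n x, p y⟫ / v) := by rw [hP]; unfold pf; simp only; rw [hv']
  have eU : U = r * (κ * ⟪z x, p y⟫ / v) := by rw [hU]; unfold pf; simp only; rw [hv']
  have eQ : Q = r * (κ * ⟪n y, p x⟫ / v) := by rw [hQ]; unfold pf; simp only; rw [hvdef]
  have eV : V = r * (κ * ⟪z y, p x⟫ / v) := by rw [hV]; unfold pf; simp only; rw [hvdef]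
  have hPQ : P - Q = U - V := by
    have h := hsym x y
    rw [real_inner_comm (n y) (p x), real_inner_comm (z y) (p x)] at h
    rw [eP, eQ, eU, eV]
    have e1 : ∀ a b : ℝ, r * (κ * a / v) - r * (κ * b / v) = r * (κ / v) * (a - b) := fun a b => by
      ring
    rw [e1, e1, h]
  have hd := det2 (l := l) hPQ hη hβ
  have hw0 := wt_nonneg (m := m) hT (h2.np x) (h2.np y)
  have hd2 := mul_le_mul_of_nonneg_left hd hw0
  have e3 : √(1 - T ^ 2) ^ (m + 1) * TK m T l (SM2.pr p n (x, y))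
      = 1 / m * (wt m T (p x) (p y) * ((P - Q) ^ 2 * max (-(P * Q) - l) 0)) := by
    obtain ⟨k, rfl⟩ : ∃ k, m = k + 1 := ⟨m - 1, by omega⟩
    unfold TK Xk Yk SM2.pr wt
    simp only [Nat.add_sub_cancel]
    rw [← hvdef, ← hκ]
    have e4 : -(P * Q) = -(((k + 1 : ℕ) : ℝ) * (1 - T ^ 2) * (⟪n x, p y⟫ * ⟪p x, n y⟫) / v ^ 2) := by
      rw [eP, eQ, real_inner_comm (p x) (n y), ← hs2, ← hsm2]
      field_simp
    have e5 : (P - Q) ^ 2 = ((k + 1 : ℕ) : ℝ) * (κ * κ) * (⟪n x, p y⟫ - ⟪p x, n y⟫) ^ 2 / v ^ 2 := by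
      rw [eP, eQ, real_inner_comm (p x) (n y), ← hsm2]
      field_simp
    rw [e4, e5]
    have e6 : ker T (k + 1 + 1) ⟪p x, p y⟫ = (v ^ k)⁻¹ / v ^ 2 := by
      unfold ker
      rw [← hvdef, show k + 1 + 1 = k + 2 by ring, pow_add, mul_inv, div_eq_mul_inv]
    rw [e6, pow_succ κ (k + 1), pow_succ κ k]
    field_simp
  rw [e3]
  refine mul_le_mul_of_nonneg_left (hd2.trans (le_of_eq ?_)) (by positivity)
  unfold Phi2
  simp only [Prod.swap_prod_mk]
  rw [← hP, ← hU, ← hQ, ← hV, wt_comm T (p y) (p x)]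
  ring

/-- the relative tail bound at level `T`, smooth cut; the power `j y` may depend on the point -/
theorem tl_level2 (h2 : Two μ m p n) {M : ℕ → ℝ} (hM : MomB μ m p M)
    (hm : 1 ≤ m) (hz : Measurable z) {B : ℝ} (hB : ∀ x, ‖z x‖ ≤ B)
    (hsym : ∀ x y, ⟪n x, p y⟫ - ⟪p x, n y⟫ = ⟪z x, p y⟫ - ⟪p x, z y⟫)
    {T : ℝ} (hT : T ∈ Ico (0 : ℝ) 1) {l η β : ℝ} (hl : 0 < l)
    (hη : 0 < η) (hη1 : η < 1) (hβ : 0 < β) (i i' : ℕ) (j : X → ℕ) {K H : X → ℝ}
    (hK0 : ∀ y, 0 ≤ K y)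
    (hK : ∀ y ρ, 0 ≤ ρ → ρ ≤ η → 1 - ρ ^ 2 / η ^ 2 ≤ K y * (1 - ρ) ^ (2 * j y + 4))
    (hHi : Integrable H μ)
    (hH : ∀ y, YV2 M (j y) l (K y) (sh m T p z y) (dz T p z y)
      + ZV M i i' l η β (sh m T p z y) (dz T p z y) ≤ H y) :
    √(1 - T ^ 2) ^ (m + 1) * E2 μ p n (TK m T l) ≤ μ.real univ * (2 / m * ∫ y, H y ∂μ) := by
  have hp : FV.Pts p n := h2.toPts
  have hm0 : (0 : ℝ) < m := by exact_mod_cast hm
  have hA : 0 ≤ μ.real univ := measureReal_nonneg
  have bP := bm_Phi2 (m := m) hp hT hz hB l η β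
  have iP := bP.int (μ := μ.prod μ)
  have iPs : Integrable (fun q : X × X => Phi2 m T l η β p n z q.swap) (μ.prod μ) := iP.swap
  -- the pair integral
  have h1 : √(1 - T ^ 2) ^ (m + 1) * E2 μ p n (TK m T l)
      ≤ 1 / m * (2 * ∫ q, Phi2 m T l η β p n z q ∂(μ.prod μ)) := by
    unfold E2
    rw [← integral_const_mul]
    have iS : Integrable (fun q : X × X => 1 / (m : ℝ) * (Phi2 m T l η β p n z q
        + Phi2 m T l η β p n z q.swap)) (μ.prod μ) := (iP.add iPs).const_mul (1 / (m : ℝ))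
    refine (integral_mono ((int_E2 h2 (measurable_TK m T l) (contOn_TK hT m l)).const_mul _)
      iS fun q => TK_le_Phi2 h2 hm hT hsym hη hβ q).trans (le_of_eq ?_)
    rw [integral_const_mul]
    congr 1
    have e1 : ∫ q : X × X, Phi2 m T l η β p n z q.swap ∂(μ.prod μ)
        = ∫ q, Phi2 m T l η β p n z q ∂(μ.prod μ) := integral_prod_swap _
    have e2 : ∫ q : X × X, (Phi2 m T l η β p n z q + Phi2 m T l η β p n z q.swap)
        ∂(μ.prod μ) = ∫ q, Phi2 m T l η β p n z q ∂(μ.prod μ)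
          + ∫ q : X × X, Phi2 m T l η β p n z q.swap ∂(μ.prod μ) := integral_add iP iPs
    rw [e2, e1]
    ring
  -- the fixed point bound
  have h3 : ∀ y, ∫ x, Phi2 m T l η β p n z (x, y) ∂μ ≤ μ.real univ * H y := by
    intro y
    have hy := h2.np y
    have hN := h2.nn y
    have hNy : ⟪n y, p y⟫ = 0 := by rw [real_inner_comm]; exact h2.pn y
    set c : E := (z y - ⟪z y, p y⟫ • p y) + (⟪z y, p y⟫ / √(1 - T ^ 2)) • p y with hc
    set s' : ℝ := √m * (T * ⟪z y, p y⟫ / √(1 - T ^ 2)) with hs'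
    have hk := k_pos hT
    have hsk := Real.sqrt_pos.2 hk
    have hs : |s'| ≤ sh m T p z y := by
      rw [hs']
      unfold sh
      rw [abs_mul, abs_div, abs_mul, abs_of_nonneg hT.1, abs_of_pos hsk,
        abs_of_nonneg (Real.sqrt_nonneg _)]
    have hcn : ‖c‖ = dz T p z y := by
      unfold dz
      rw [← norm_affine_sq hT hy (z y), ← hc, Real.sqrt_sq (norm_nonneg _)]
    have eQ : ∀ x, pf m T p n (x, y) = xi m T (p y) (n y) (p x) := by
      intro x
      unfold pf xi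
      rw [inner_mob_perp hT (h2.np x) hy hNy]
    have eV : ∀ x, pf m T p z (x, y) = xi m T (p y) c (p x) + s' := by
      intro x
      unfold pf xi
      simp only
      rw [inner_affine hT (h2.np x) hy (z y), mul_add]
    have hPQ : ∀ x, pf m T p n (y, x) - xi m T (p y) (n y) (p x)
        = pf m T p z (y, x) - (xi m T (p y) c (p x) + s') := by
      intro x
      rw [← eQ, ← eV]
      have hv' : 1 - T * ⟪p y, p x⟫ = 1 - T * ⟪p x, p y⟫ := by rw [real_inner_comm]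
      have h := hsym x y
      rw [real_inner_comm (n y) (p x), real_inner_comm (z y) (p x)] at h
      unfold pf
      simp only
      rw [hv', ← mul_sub, ← mul_sub, ← sub_div, ← sub_div, ← mul_sub, ← mul_sub, h]
    have b1 := bm_xi (m := m) hp hT hy (n y)
    have b2 := (bm_xi (m := m) hp hT hy c).add (BM.const s')
    have b3 : BM (fun x => pf m T p n (y, x)) := by
      obtain ⟨m1, C, hC⟩ := bm_pf (m := m) hp hT hp.mn (fun x => (hp.nn x).le)
      exact ⟨m1.comp measurable_prodMk_left, C, fun x => hC _⟩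
    have b4 : BM (fun x => pf m T p z (y, x)) := by
      obtain ⟨m1, C, hC⟩ := bm_pf (m := m) hp hT hz hB
      exact ⟨m1.comp measurable_prodMk_left, C, fun x => hC _⟩
    have bw := bm_wt (m := m) hp hT hy
    have i1 := (bw.mul (bm_G1 b3 b1 b4 b2 l η)).int (μ := μ)
    have i2 := (bw.mul (bm_G2 b1 b2 l η β)).int (μ := μ)
    have e3 : ∫ x, Phi2 m T l η β p n z (x, y) ∂μ
        = ∫ x, wt m T (p x) (p y) * G1 l η (pf m T p n (y, x)) (xi m T (p y) (n y) (p x))
            (pf m T p z (y, x)) (xi m T (p y) c (p x) + s') ∂μ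
        + ∫ x, wt m T (p x) (p y) * G2 l η β (xi m T (p y) (n y) (p x))
          (xi m T (p y) c (p x) + s') ∂μ := by
      rw [← integral_add i1 i2]
      refine integral_congr_ae (Filter.Eventually.of_forall fun x => ?_)
      simp only
      unfold Phi2
      simp only [Prod.swap_prod_mk]
      rw [eQ, eV]
    have v1 := hM.main2 hp hT hy hN (j y) hl hη hη1 hs (hK0 y) (hK y) (c := c)
      (P := fun x => pf m T p n (y, x)) (U := fun x => pf m T p z (y, x)) hPQ
    have v2 := hM.rem hp hT hy hN i i' hl hs hη hβ (c := c)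
    rw [hcn] at v1 v2
    rw [e3]
    have v3 := mul_le_mul_of_nonneg_left (hH y) hA
    linarith
  have h4 : ∫ q, Phi2 m T l η β p n z q ∂(μ.prod μ) ≤ μ.real univ * ∫ y, H y ∂μ := by
    rw [integral_prod_symm _ iP, ← integral_const_mul]
    refine integral_mono_of_nonneg (Filter.Eventually.of_forall fun y =>
      integral_nonneg fun x => ?_) (hHi.const_mul _) (Filter.Eventually.of_forall h3)
    unfold Phi2
    have hw0 := wt_nonneg (m := m) hT (h2.np x) (h2.np y)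
    exact add_nonneg (mul_nonneg hw0 (G1_nonneg _ _ _ _ _ _))
      (mul_nonneg hw0 (G2_nonneg _ _ _ _ _))
  refine h1.trans ?_
  have h5 := mul_le_mul_of_nonneg_left h4 (by positivity : (0 : ℝ) ≤ 1 / m * 2)
  calc 1 / (m : ℝ) * (2 * ∫ q, Phi2 m T l η β p n z q ∂(μ.prod μ))
      = 1 / m * 2 * ∫ q, Phi2 m T l η β p n z q ∂(μ.prod μ) := by ring
    _ ≤ 1 / m * 2 * (μ.real univ * ∫ y, H y ∂μ) := h5
    _ = _ := by ring

end

end Vale.Agent.P224.R2.H876
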