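import Vale.Agent.P224.R2.H876.TlDet
import Vale.Agent.P224.R2.H484.Abs
import Vale.Agent.P224.R2.H728.T0

/-!
The relative tail bound at level `T`: integration of the two views at a fixed point, from the
absolute moments of the one point linear forms.
-/

namespace Vale.Agent.P224.R2.H876

open MeasureTheory Set Function Module Vale.Agent.P224 Vale.Agent.P224.SM2
  Vale.Agent.P224.R2.H869 Vale.Agent.P224.R2.H582 Vale.Agent.P224.R2.H484
  Vale.Agent.P224.R2.H728
open scoped RealInnerProductSpace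

set_option linter.unusedSectionVars false

section bm

variable {Ω : Type*} [MeasurableSpace Ω] {f g : Ω → ℝ}

lemma bm_abs (hf : BM f) : BM (fun ω => |f ω|) := by
  obtain ⟨h1, C, h2⟩ := hf
  exact ⟨h1.norm, C, fun ω => by rw [abs_abs]; exact h2 ω⟩

lemma bm_max (hf : BM f) (hg : BM g) : BM (fun ω => max (f ω) (g ω)) := by
  obtain ⟨h1, C, h2⟩ := hf
  obtain ⟨h3, D, h4⟩ := hg
  refine ⟨h1.max h3, C + D, fun ω => ?_⟩
  change |max (f ω) (g ω)| ≤ C + D
  have a1 := h2 ω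
  have a2 := h4 ω
  have a3 := abs_nonneg (f ω)
  have a4 := abs_nonneg (g ω)
  rcases max_cases (f ω) (g ω) with h | h <;> rw [h.1] <;> linarith

lemma bm_inv {c : ℝ} (hc : 0 < c) (hf : BM f) (h : ∀ ω, c ≤ f ω) : BM (fun ω => (f ω)⁻¹) := by
  refine ⟨hf.1.inv, c⁻¹, fun ω => ?_⟩
  have := h ω
  rw [abs_of_pos (inv_pos.2 (by linarith))]
  exact inv_anti₀ hc this

lemma bm_inner {E : Type*} [NormedAddCommGroup E] [InnerProductSpace ℝ E] [MeasurableSpace E]
    [BorelSpace E] [SecondCountableTopology E] {a b : Ω → E} (ha : Measurable a) (hb : Measurable b)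
    {A B : ℝ} (hA : ∀ ω, ‖a ω‖ ≤ A) (hB : ∀ ω, ‖b ω‖ ≤ B) : BM (fun ω => ⟪a ω, b ω⟫) := by
  refine ⟨ha.inner hb, A * B, fun ω => (abs_real_inner_le_norm _ _).trans ?_⟩
  exact mul_le_mul (hA ω) (hB ω) (norm_nonneg _) ((norm_nonneg _).trans (hA ω))

end bm

section amgm

/-- weighted AM-GM with natural exponents -/
lemma amgm3 {α β γ : ℝ} (hα : 0 ≤ α) (hβ : 0 ≤ β) (hγ : 0 ≤ γ) (i j k : ℕ) (h : 0 < i + j + k) :
    α ^ i * β ^ j * γ ^ k ≤ ((i : ℝ) / ((i + j + k : ℕ) : ℝ)) * α ^ (i + j + k)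
      + ((j : ℝ) / ((i + j + k : ℕ) : ℝ)) * β ^ (i + j + k)
      + ((k : ℝ) / ((i + j + k : ℕ) : ℝ)) * γ ^ (i + j + k) := by
  set n := i + j + k with hn
  have hn0 : (0 : ℝ) < n := by exact_mod_cast h
  have key := Real.geom_mean_le_arith_mean3_weighted (w₁ := (i : ℝ) / n) (w₂ := (j : ℝ) / n)
    (w₃ := (k : ℝ) / n) (p₁ := α ^ n) (p₂ := β ^ n) (p₃ := γ ^ n) (by positivity) (by positivity)
    (by positivity) (by positivity) (by positivity) (by positivity) (by
      rw [← add_div, ← add_div, div_eq_one_iff_eq hn0.ne', hn]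
      push_cast
      ring)
  have e : ∀ {a : ℝ}, 0 ≤ a → ∀ q : ℕ, (a ^ n) ^ ((q : ℝ) / n) = a ^ q := by
    intro a ha q
    rw [← Real.rpow_natCast a n, ← Real.rpow_mul ha, ← Real.rpow_natCast a q]
    congr 1
    field_simp
  rwa [e hα, e hβ, e hγ] at key

end amgm

section

variable {X : Type*} [MeasurableSpace X] {E : Type*} [NormedAddCommGroup E]
  [InnerProductSpace ℝ E] [MeasurableSpace E] [BorelSpace E] [SecondCountableTopology E]
  {μ : Measure X} [IsFiniteMeasure μ] {m : ℕ} {p n z : X → E}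

/-- the weight at level `T` with exponent `m - 1` -/
noncomputable def wt (m : ℕ) (T : ℝ) (x y : E) : ℝ :=
  √(1 - T ^ 2) ^ (m - 1) * ((1 - T * ⟪x, y⟫) ^ (m - 1))⁻¹

/-- the linear form `√m ⟪b, mob T y x⟫` -/
noncomputable def xi (m : ℕ) (T : ℝ) (y b x : E) : ℝ := √m * ⟪b, mob T y x⟫

/-- bounds of the absolute moments of the linear forms at level `T` -/
def MomB (μ : Measure X) (m : ℕ) (p : X → E) (M : ℕ → ℝ) : Prop :=
  ∀ T ∈ Ico (0 : ℝ) 1, ∀ y : E, ‖y‖ = 1 → ∀ (b : E) (q : ℕ),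
    √(1 - T ^ 2) ^ (m - 1) * ∫ x, ((1 - T * ⟪p x, y⟫) ^ (m - 1))⁻¹ *
      |√m * ⟪b, mob T y (p x)⟫| ^ q ∂μ ≤ μ.real univ * (M q * ‖b‖ ^ q)

lemma wt_nonneg {T : ℝ} (hT : T ∈ Ico (0 : ℝ) 1) {x y : E} (hx : ‖x‖ = 1) (hy : ‖y‖ = 1) :
    0 ≤ wt m T x y :=
  mul_nonneg (by positivity) (inv_nonneg.2 (pow_nonneg (v_pos hT hx hy).le _))

lemma v_ge {T : ℝ} (hT : T ∈ Ico (0 : ℝ) 1) {x y : E} (hx : ‖x‖ = 1) (hy : ‖y‖ = 1) :
    1 - T ≤ 1 - T * ⟪x, y⟫ := by
  have h := (abs_inner_le_one hx hy).2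
  have := mul_le_mul_of_nonneg_left h hT.1
  linarith

lemma bm_wt (hp : FV.Pts p n) {T : ℝ} (hT : T ∈ Ico (0 : ℝ) 1) {y : E} (hy : ‖y‖ = 1) :
    BM (fun x => wt m T (p x) y) := by
  have h1 : BM (fun x => ⟪p x, y⟫) :=
    bm_inner hp.mp measurable_const (fun x => (hp.np x).le) (fun _ => hy.le)
  have h2 : BM (fun x => (1 - T * ⟪p x, y⟫) ^ (m - 1)) := ((BM.const 1).sub (h1.const_mul T)).pow _
  have h3 := bm_inv (c := (1 - T) ^ (m - 1)) (pow_pos (by linarith [hT.2]) _) h2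
    (fun x => pow_le_pow_left₀ (by linarith [hT.2]) (v_ge hT (hp.np x) hy) _)
  exact h3.const_mul _

lemma measurable_mob (hp : Measurable p) (T : ℝ) (y : E) : Measurable fun x => mob T y (p x) := by
  unfold mob
  have h1 : Measurable fun x => ⟪p x, y⟫ := hp.inner measurable_const
  exact ((measurable_const.sub (h1.const_mul T)).inv).smul
    (((hp.sub (h1.smul measurable_const)).const_smul _).add
      ((h1.sub measurable_const).smul measurable_const))

lemma bm_xi (hp : FV.Pts p n) {T : ℝ} (hT : T ∈ Ico (0 : ℝ) 1) {y : E} (hy : ‖y‖ = 1) (b : E) :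
    BM (fun x => xi m T y b (p x)) :=
  (bm_inner measurable_const (measurable_mob hp.mp T y) (fun _ => le_rfl)
    (fun x => (norm_mob hT (hp.np x) hy).le)).const_mul _

lemma exists_unit {y : E} (hy : ‖y‖ = 1) (b : E) : ∃ u : E, ‖u‖ = 1 ∧ b = ‖b‖ • u := by
  rcases eq_or_ne b 0 with rfl | h
  · exact ⟨y, hy, by simp⟩
  · have hb : ‖b‖ ≠ 0 := norm_ne_zero_iff.2 h
    refine ⟨‖b‖⁻¹ • b, ?_, ?_⟩
    · rw [norm_smul, norm_inv, norm_norm, inv_mul_cancel₀ hb]
    · rw [smul_smul, mul_inv_cancel₀ hb, one_smul]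

lemma abs_xi_smul (T : ℝ) (y u x : E) (b : E) (hb : b = ‖b‖ • u) :
    |xi m T y b x| = ‖b‖ * |xi m T y u x| := by
  have h : xi m T y b x = ‖b‖ * xi m T y u x := by
    conv_lhs => rw [hb]
    unfold xi
    rw [real_inner_smul_left]
    ring
  rw [h, abs_mul, abs_of_nonneg (norm_nonneg b)]

/-- the moments in the form with the weight -/
lemma MomB.one {M : ℕ → ℝ} (hM : MomB μ m p M) {T : ℝ} (hT : T ∈ Ico (0 : ℝ) 1) {y : E}
    (hy : ‖y‖ = 1) (b : E) (q : ℕ) :
    ∫ x, wt m T (p x) y * |xi m T y b (p x)| ^ q ∂μ ≤ μ.real univ * (M q * ‖b‖ ^ q) := by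
  refine le_trans (le_of_eq ?_) (hM T hT y hy b q)
  rw [← integral_const_mul]
  refine integral_congr_ae (Filter.Eventually.of_forall fun x => ?_)
  simp only
  unfold wt xi
  ring

/-- mixed moments -/
theorem MomB.three {M : ℕ → ℝ} (hM : MomB μ m p M) (hp : FV.Pts p n) {T : ℝ}
    (hT : T ∈ Ico (0 : ℝ) 1) {y : E} (hy : ‖y‖ = 1) (a b c : E) (i j k : ℕ) :
    ∫ x, wt m T (p x) y * (|xi m T y a (p x)| ^ i * |xi m T y b (p x)| ^ j
      * |xi m T y c (p x)| ^ k) ∂μ
      ≤ μ.real univ * (M (i + j + k) * (‖a‖ ^ i * ‖b‖ ^ j * ‖c‖ ^ k)) := by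
  obtain ⟨u, hu, ha⟩ := exists_unit hy a
  obtain ⟨v, hv, hb⟩ := exists_unit hy b
  obtain ⟨w, hw, hc⟩ := exists_unit hy c
  have hA : 0 ≤ μ.real univ := measureReal_nonneg
  have bw := bm_wt (m := m) hp hT hy
  have bu := bm_abs (bm_xi (m := m) hp hT hy u)
  have bv := bm_abs (bm_xi (m := m) hp hT hy v)
  have bww := bm_abs (bm_xi (m := m) hp hT hy w)
  -- the unit case
  have key : ∫ x, wt m T (p x) y * (|xi m T y u (p x)| ^ i * |xi m T y v (p x)| ^ j
      * |xi m T y w (p x)| ^ k) ∂μ ≤ μ.real univ * M (i + j + k) := by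
    rcases Nat.eq_zero_or_pos (i + j + k) with h0 | h0
    · have hi : i = 0 := by omega
      have hj : j = 0 := by omega
      have hk : k = 0 := by omega
      have := hM.one hT hy u 0
      subst hi hj hk
      simpa using this
    · have i1 := (bw.mul (bu.pow (i + j + k))).int (μ := μ)
      have i2 := (bw.mul (bv.pow (i + j + k))).int (μ := μ)
      have i3 := (bw.mul (bww.pow (i + j + k))).int (μ := μ)
      have i0 := (bw.mul (((bu.pow i).mul (bv.pow j)).mul (bww.pow k))).int (μ := μ)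
      set N := i + j + k with hN
      have hn0 : (0 : ℝ) < (N : ℝ) := by exact_mod_cast h0
      have h1 : ∫ x, wt m T (p x) y * (|xi m T y u (p x)| ^ i * |xi m T y v (p x)| ^ j
          * |xi m T y w (p x)| ^ k) ∂μ ≤
          ∫ x, ((i : ℝ) / N * (wt m T (p x) y * |xi m T y u (p x)| ^ N)
            + (j : ℝ) / N * (wt m T (p x) y * |xi m T y v (p x)| ^ N)
            + (k : ℝ) / N * (wt m T (p x) y * |xi m T y w (p x)| ^ N)) ∂μ := by
        refine integral_mono i0 (((i1.const_mul _).add (i2.const_mul _)).add (i3.const_mul _))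
          fun x => ?_
        have h2 := amgm3 (abs_nonneg (xi m T y u (p x))) (abs_nonneg (xi m T y v (p x)))
          (abs_nonneg (xi m T y w (p x))) i j k h0
        have h3 := mul_le_mul_of_nonneg_left h2 (wt_nonneg (m := m) hT (hp.np x) hy)
        refine h3.trans (le_of_eq ?_)
        rw [← hN]
        ring
      have i12 : Integrable (fun x => (i : ℝ) / N * (wt m T (p x) y * |xi m T y u (p x)| ^ N)
          + (j : ℝ) / N * (wt m T (p x) y * |xi m T y v (p x)| ^ N)) μ :=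
        (i1.const_mul _).add (i2.const_mul _)
      rw [integral_add i12 (i3.const_mul _),
        integral_add (i1.const_mul _) (i2.const_mul _), integral_const_mul, integral_const_mul,
        integral_const_mul] at h1
      have m1 := hM.one hT hy u N
      have m2 := hM.one hT hy v N
      have m3 := hM.one hT hy w N
      rw [hu, one_pow, mul_one] at m1
      rw [hv, one_pow, mul_one] at m2
      rw [hw, one_pow, mul_one] at m3
      have hs : (i : ℝ) / N + (j : ℝ) / N + (k : ℝ) / N = 1 := by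
        rw [← add_div, ← add_div, div_eq_one_iff_eq hn0.ne', hN]
        push_cast
        ring
      have q1 := mul_le_mul_of_nonneg_left m1 (by positivity : (0 : ℝ) ≤ (i : ℝ) / N)
      have q2 := mul_le_mul_of_nonneg_left m2 (by positivity : (0 : ℝ) ≤ (j : ℝ) / N)
      have q3 := mul_le_mul_of_nonneg_left m3 (by positivity : (0 : ℝ) ≤ (k : ℝ) / N)
      calc _ ≤ _ := h1
        _ ≤ (i : ℝ) / N * (μ.real univ * M N) + (j : ℝ) / N * (μ.real univ * M N)
            + (k : ℝ) / N * (μ.real univ * M N) := by linarith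
        _ = ((i : ℝ) / N + (j : ℝ) / N + (k : ℝ) / N) * (μ.real univ * M N) := by ring
        _ = _ := by rw [hs, one_mul]
  have e : ∀ x, wt m T (p x) y * (|xi m T y a (p x)| ^ i * |xi m T y b (p x)| ^ j
      * |xi m T y c (p x)| ^ k) = (‖a‖ ^ i * ‖b‖ ^ j * ‖c‖ ^ k) *
      (wt m T (p x) y * (|xi m T y u (p x)| ^ i * |xi m T y v (p x)| ^ j
      * |xi m T y w (p x)| ^ k)) := by
    intro x
    rw [abs_xi_smul T y u (p x) a ha, abs_xi_smul T y v (p x) b hb, abs_xi_smul T y w (p x) c hc]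
    ring
  simp_rw [e]
  rw [integral_const_mul]
  have h5 := mul_le_mul_of_nonneg_left key
    (by positivity : (0 : ℝ) ≤ ‖a‖ ^ i * ‖b‖ ^ j * ‖c‖ ^ k)
  refine h5.trans (le_of_eq ?_)
  ring

end

end Vale.Agent.P224.R2.H876
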