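import Vale.Agent.P224.R2.H686.RowQ

/-!
Mixed rows: weights `φ ^ (2 i) q ^ (2 k + 1)` with the field `W x`, in the form of inequalities.
-/

namespace Vale.Agent.P224.R2.H876

open MeasureTheory Module Function Set Vale.Agent.P224.R2.H470 Vale.Agent.P224.R2.H686
open scoped RealInnerProductSpace Topology ContDiff

set_option linter.unusedSectionVars false

section

variable {X : Type*} {E : Type*} [NormedAddCommGroup E] [InnerProductSpace ℝ E]
  [FiniteDimensional ℝ E] [TopologicalSpace X] [MeasurableSpace X] [CompactSpace X] [BorelSpace X]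
  {μ : Measure X} [IsProbabilityMeasure μ] {m : ℕ} {p n : X → E} {J : E →L[ℝ] E} {Λ : ℝ}

/-- the inner product of the two tangential fields -/
lemma inner_T1_T2_le (d : Dat μ m p n J Λ) (x : X) :
    |⟪T1 J p n x, T2 J p n x⟫| ≤ Λ * √m * √(tau J p n x * (1 + qq J p x)) := by
  have h1 : ‖T1 J p n x‖ ≤ √(tau J p n x) := Real.le_sqrt_of_sq_le (d.t1_le x)
  have h2 : ‖T2 J p n x‖ ≤ Λ * √m * √(1 + qq J p x) := by
    have h3 : ‖T2 J p n x‖ ≤ √(Λ ^ 2 * m * (1 + qq J p x)) := Real.le_sqrt_of_sq_le (d.t2_le x)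
    refine h3.trans (le_of_eq ?_)
    rw [Real.sqrt_mul (by positivity), Real.sqrt_mul (sq_nonneg _), Real.sqrt_sq d.l0]
  have h4 := abs_real_inner_le_norm (T1 J p n x) (T2 J p n x)
  have h5 := d.tau_nonneg x
  have h6 := d.l0
  refine (h4.trans (mul_le_mul h1 h2 (norm_nonneg _) (Real.sqrt_nonneg _))).trans (le_of_eq ?_)
  rw [Real.sqrt_mul h5]
  ring

/-- the mixed row of `φ ^ (2 i) q ^ (2 k + 2)` -/
theorem X_row (d : Dat μ m p n J Λ) (i k : ℕ) :
    ∫ x, (ph m J p x ^ (2 * i) * qq J p x ^ (2 * k + 2)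
      - t0 J / (m + 1) * (ph m J p x ^ (2 * i) * qq J p x ^ (2 * k + 1))
      - Λ ^ 2 * (ph m J p x ^ (2 * i) * max (-qq J p x) 0 ^ (2 * k + 1))
      - 4 * i * Λ * (ph m J p x ^ (2 * i - 1) * |qq J p x| ^ (2 * k + 1)
          * √(tau J p n x * (1 + qq J p x)))
      - (4 * k + 2) * Λ ^ 2 * (ph m J p x ^ (2 * i) * qq J p x ^ (2 * k) * (1 + qq J p x))) ∂μ
      ≤ 0 := by
  have h1 := d.rowW (2 * i) (2 * k + 1)
  have cq := d.cq
  have ck := d.ck
  have cf := d.cf
  have cph := d.cph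
  have ct := d.ctau
  have c1 := cont_T1 d.h J
  have c2 := cont_T2 d.h J
  have hm := d.m_pos
  have hm1 : (0 : ℝ) < m + 1 := by linarith
  have hl := d.l0
  have hmi : (0 : ℝ) < (m : ℝ) ^ i := pow_pos hm i
  simp only [Nat.add_sub_cancel] at h1
  have h2 : ∫ x, (m + 1) * (ph m J p x ^ (2 * i) * qq J p x ^ (2 * k + 2)
      - t0 J / (m + 1) * (ph m J p x ^ (2 * i) * qq J p x ^ (2 * k + 1))
      - Λ ^ 2 * (ph m J p x ^ (2 * i) * max (-qq J p x) 0 ^ (2 * k + 1))
      - 4 * i * Λ * (ph m J p x ^ (2 * i - 1) * |qq J p x| ^ (2 * k + 1)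
          * √(tau J p n x * (1 + qq J p x)))
      - (4 * k + 2) * Λ ^ 2 * (ph m J p x ^ (2 * i) * qq J p x ^ (2 * k) * (1 + qq J p x))) ∂μ
      ≤ ∫ x, (m : ℝ) ^ i * ((m + 1) * (ff J p x ^ (2 * i) * qq J p x ^ (2 * k + 1 + 1))) ∂μ
        - ∫ x, (m : ℝ) ^ i * (ff J p x ^ (2 * i) * qq J p x ^ (2 * k + 1) * (t0 J - kk J n x)
          + 2 * ((2 * i : ℕ) : ℝ) * (ff J p x ^ (2 * i - 1) * qq J p x ^ (2 * k + 1))
            * ⟪T1 J p n x, T2 J p n x⟫
          + 2 * ((2 * k + 1 : ℕ) : ℝ) * (ff J p x ^ (2 * i) * qq J p x ^ (2 * k))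
            * ‖T2 J p n x‖ ^ 2) ∂μ := by
    rw [← integral_sub (int_of_cont (by fun_prop)) (int_of_cont (by fun_prop))]
    refine integral_mono (int_of_cont (by fun_prop)) (int_of_cont (by fun_prop)) fun x => ?_
    simp only
    have k1 := d.t2_le x
    have k2 : 0 ≤ qq J p x ^ (2 * k) := by
      rw [pow_mul]
      positivity
    have k3 := d.k_le x
    have k4 := kk_nonneg (J := J) (n := n) x
    have k5 := d.q_ge x
    have kf : ph m J p x ^ (2 * i) = (m : ℝ) ^ i * ff J p x ^ (2 * i) := ph_even i x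
    have kf0 : 0 ≤ ph m J p x ^ (2 * i) := pow_nonneg (ph_nonneg x) _
    -- the term with `|T2|²`
    have s1 : (m : ℝ) ^ i * (2 * ((2 * k + 1 : ℕ) : ℝ) * (ff J p x ^ (2 * i) * qq J p x ^ (2 * k))
            * ‖T2 J p n x‖ ^ 2) ≤ (m + 1) * ((4 * k + 2) * Λ ^ 2 * (ph m J p x ^ (2 * i)
            * qq J p x ^ (2 * k) * (1 + qq J p x))) := by
      have e1 : 0 ≤ (4 * (k : ℝ) + 2) * (ph m J p x ^ (2 * i) * qq J p x ^ (2 * k)) := by positivity
      have e2 : ‖T2 J p n x‖ ^ 2 ≤ (m + 1) * (Λ ^ 2 * (1 + qq J p x)) := by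
        refine k1.trans ?_
        have : 0 ≤ Λ ^ 2 * (1 + qq J p x) := mul_nonneg (sq_nonneg _) (by linarith)
        nlinarith
      have e3 := mul_le_mul_of_nonneg_left e2 e1
      refine le_trans (le_of_eq ?_) (e3.trans (le_of_eq ?_))
      · rw [kf]
        push_cast
        ring
      · ring
    -- the term with `T1 T2`
    have s2 : (m : ℝ) ^ i * (2 * ((2 * i : ℕ) : ℝ) * (ff J p x ^ (2 * i - 1)
            * qq J p x ^ (2 * k + 1)) * ⟪T1 J p n x, T2 J p n x⟫)
        ≤ (m + 1) * (4 * i * Λ * (ph m J p x ^ (2 * i - 1) * |qq J p x| ^ (2 * k + 1)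
          * √(tau J p n x * (1 + qq J p x)))) := by
      rcases Nat.eq_zero_or_pos i with rfl | hi
      · simp
      obtain ⟨r, rfl⟩ : ∃ r, i = r + 1 := ⟨i - 1, by omega⟩
      rw [show 2 * (r + 1) - 1 = 2 * r + 1 by omega]
      have e1 := inner_T1_T2_le d x
      have e2 : (m : ℝ) ^ (r + 1) * (2 * ((2 * (r + 1) : ℕ) : ℝ) * (ff J p x ^ (2 * r + 1)
            * qq J p x ^ (2 * k + 1)) * ⟪T1 J p n x, T2 J p n x⟫)
          ≤ |(m : ℝ) ^ (r + 1) * (2 * ((2 * (r + 1) : ℕ) : ℝ) * (ff J p x ^ (2 * r + 1)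
            * qq J p x ^ (2 * k + 1)) * ⟪T1 J p n x, T2 J p n x⟫)| := le_abs_self _
      refine e2.trans ?_
      have e3 : |(m : ℝ) ^ (r + 1) * (2 * ((2 * (r + 1) : ℕ) : ℝ) * (ff J p x ^ (2 * r + 1)
            * qq J p x ^ (2 * k + 1)) * ⟪T1 J p n x, T2 J p n x⟫)|
          = (√m * (4 * ((r : ℝ) + 1) * (ph m J p x ^ (2 * r + 1) * |qq J p x| ^ (2 * k + 1))))
            * |⟪T1 J p n x, T2 J p n x⟫| := by
        rw [ph_odd, abs_mul, abs_mul, abs_mul, abs_mul, abs_mul, abs_pow (qq J p x),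
          abs_of_pos (pow_pos hm _), abs_of_nonneg (by positivity : (0 : ℝ) ≤ 2),
          abs_of_nonneg (Nat.cast_nonneg (α := ℝ) (2 * (r + 1)))]
        have e4 : (√m : ℝ) * √m = m := Real.mul_self_sqrt hm.le
        push_cast
        have e5 : √(m : ℝ) * (4 * ((r : ℝ) + 1) * ((m : ℝ) ^ r * √m * |ff J p x ^ (2 * r + 1)|
            * |qq J p x| ^ (2 * k + 1))) = (√m * √m) * (4 * ((r : ℝ) + 1) * ((m : ℝ) ^ r
            * |ff J p x ^ (2 * r + 1)| * |qq J p x| ^ (2 * k + 1))) := by ring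
        rw [e5, e4, pow_succ]
        ring
      rw [e3]
      have e6 : 0 ≤ √(m : ℝ) * (4 * ((r : ℝ) + 1) * (ph m J p x ^ (2 * r + 1)
          * |qq J p x| ^ (2 * k + 1))) := by
        have := ph_nonneg (m := m) (J := J) (p := p) x
        positivity
      refine (mul_le_mul_of_nonneg_left e1 e6).trans ?_
      have e7 : (√m : ℝ) * √m = m := Real.mul_self_sqrt hm.le
      have e8 : √(m : ℝ) * (4 * ((r : ℝ) + 1) * (ph m J p x ^ (2 * r + 1)
          * |qq J p x| ^ (2 * k + 1))) * (Λ * √m * √(tau J p n x * (1 + qq J p x)))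
          = (√m * √m) * (4 * ((r : ℝ) + 1) * Λ * (ph m J p x ^ (2 * r + 1)
          * |qq J p x| ^ (2 * k + 1) * √(tau J p n x * (1 + qq J p x)))) := by ring
      rw [e8, e7]
      push_cast
      refine mul_le_mul_of_nonneg_right (by linarith) ?_
      have := ph_nonneg (m := m) (J := J) (p := p) x
      positivity
    -- the term with the trace
    have s3 : (m : ℝ) ^ i * (ff J p x ^ (2 * i) * qq J p x ^ (2 * k + 1) * (t0 J - kk J n x))
        ≤ (m + 1) * (t0 J / (m + 1) * (ph m J p x ^ (2 * i) * qq J p x ^ (2 * k + 1))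
          + Λ ^ 2 * (ph m J p x ^ (2 * i) * max (-qq J p x) 0 ^ (2 * k + 1))) := by
      have e1 : (m + 1) * (t0 J / (m + 1) * (ph m J p x ^ (2 * i) * qq J p x ^ (2 * k + 1))
          + Λ ^ 2 * (ph m J p x ^ (2 * i) * max (-qq J p x) 0 ^ (2 * k + 1)))
          = ph m J p x ^ (2 * i) * (t0 J * qq J p x ^ (2 * k + 1)
            + (m + 1) * (Λ ^ 2 * max (-qq J p x) 0 ^ (2 * k + 1))) := by
        field_simp
      have e2 : (m : ℝ) ^ i * (ff J p x ^ (2 * i) * qq J p x ^ (2 * k + 1) * (t0 J - kk J n x))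
          = ph m J p x ^ (2 * i) * (t0 J * qq J p x ^ (2 * k + 1)
            + -(qq J p x ^ (2 * k + 1) * kk J n x)) := by
        rw [kf]
        ring
      rw [e1, e2]
      refine mul_le_mul_of_nonneg_left ?_ kf0
      have k8 : -(qq J p x ^ (2 * k + 1) * kk J n x)
          ≤ (m + 1) * (Λ ^ 2 * max (-qq J p x) 0 ^ (2 * k + 1)) := by
        rcases le_total 0 (qq J p x) with hq | hq
        · have : 0 ≤ qq J p x ^ (2 * k + 1) * kk J n x := mul_nonneg (pow_nonneg hq _) k4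
          have : 0 ≤ (m + 1) * (Λ ^ 2 * max (-qq J p x) 0 ^ (2 * k + 1)) :=
            mul_nonneg hm1.le (mul_nonneg (sq_nonneg _) (pow_nonneg (le_max_right _ _) _))
          linarith
        · rw [max_eq_left (by linarith)]
          have e1 : -(qq J p x ^ (2 * k + 1) * kk J n x)
              = (-qq J p x) ^ (2 * k + 1) * kk J n x := by
            rw [Odd.neg_pow ⟨k, rfl⟩]
            ring
          have e2 : 0 ≤ (-qq J p x) ^ (2 * k + 1) := pow_nonneg (by linarith) _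
          rw [e1]
          have e3 := mul_le_mul_of_nonneg_left k3 e2
          have e4 : 0 ≤ Λ ^ 2 * (-qq J p x) ^ (2 * k + 1) := mul_nonneg (sq_nonneg _) e2
          nlinarith
      linarith
    have s0 : (m + 1) * (ph m J p x ^ (2 * i) * qq J p x ^ (2 * k + 2))
        = (m : ℝ) ^ i * ((m + 1) * (ff J p x ^ (2 * i) * qq J p x ^ (2 * k + 1 + 1))) := by
      rw [kf]
      ring
    linarith
  rw [integral_const_mul, integral_const_mul, integral_const_mul, integral_const_mul, h1,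
    sub_self] at h2
  by_contra hc
  push Not at hc
  have := mul_pos hm1 hc
  linarith

/-- the mixed row of `φ² q²`, with the square root removed -/
theorem X_row' (d : Dat μ m p n J Λ) {θ : ℝ} (hθ : 0 < θ) :
    ∫ x, ((1 - θ) * (ph m J p x ^ 2 * qq J p x ^ 2)
      - t0 J / (m + 1) * (ph m J p x ^ 2 * qq J p x)
      - Λ ^ 2 * (ph m J p x ^ 2 * max (-qq J p x) 0)
      - 4 * Λ ^ 2 / θ * (tau J p n x * (1 + qq J p x))
      - 2 * Λ ^ 2 * (ph m J p x ^ 2 * (1 + qq J p x))) ∂μ ≤ 0 := by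
  have h1 := X_row d 1 0
  have cq := d.cq
  have cph := d.cph
  have ct := d.ctau
  refine le_trans (integral_mono (int_of_cont (by fun_prop)) (int_of_cont (by fun_prop))
    fun x => ?_) h1
  simp only
  have h2 := d.tau_nonneg x
  have h3 := d.q_ge x
  have h4 : 0 ≤ tau J p n x * (1 + qq J p x) := mul_nonneg h2 (by linarith)
  have h5 := Real.sq_sqrt h4
  have h6 : 4 * Λ * (ph m J p x * |qq J p x| * √(tau J p n x * (1 + qq J p x)))
      ≤ θ * (ph m J p x ^ 2 * qq J p x ^ 2) + 4 * Λ ^ 2 / θ * (tau J p n x * (1 + qq J p x)) := by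
    set s := √(tau J p n x * (1 + qq J p x))
    rw [← h5, ← sq_abs (qq J p x)]
    have e1 : θ * (ph m J p x ^ 2 * |qq J p x| ^ 2) + 4 * Λ ^ 2 / θ * s ^ 2
        - 4 * Λ * (ph m J p x * |qq J p x| * s)
        = (θ * (ph m J p x * |qq J p x|) - 2 * Λ * s) ^ 2 / θ := by
      field_simp
      ring
    have e2 : 0 ≤ (θ * (ph m J p x * |qq J p x|) - 2 * Λ * s) ^ 2 / θ := by positivity
    linarith
  simp only [mul_one, mul_zero, zero_add, pow_one, pow_zero, Nat.cast_one, Nat.cast_zero,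
    show 2 - 1 = 1 from rfl]
  linarith

end

end Vale.Agent.P224.R2.H876
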