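import Mathlib

/-!
Deterministic part of the relative tail bound: the pair tail `(P-Q)²(-PQ-l)₊` is at most the sum
of a function of one variable in each role.
-/

namespace Vale.Agent.P224.R2.H876

/-- the x view -/
noncomputable def PhX (l u P U : ℝ) : ℝ := 4 * P ^ 2 * max (P ^ 2 - l) 0 * (U / u) ^ 2

/-- the y view -/
noncomputable def PhY (l u η Q V : ℝ) : ℝ :=
  (1 + η) ^ 2 * V ^ 2 * max (V * Q - Q ^ 2 + u * |Q| - l) 0

lemma PhX_nonneg (l u P U : ℝ) : 0 ≤ PhX l u P U := by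
  unfold PhX
  positivity

lemma PhY_nonneg (l u η Q V : ℝ) : 0 ≤ PhY l u η Q V := by
  unfold PhY
  positivity

/-- one half of the splitting -/
lemma det_half {P Q U V l u η : ℝ} (hPQ : P - Q = U - V) (hl : 0 < l) (hu : 0 < u) (hη : 0 ≤ η)
    (hηu : u ≤ η * (2 * √l - u)) (h : |Q| ≤ |P|) :
    (P - Q) ^ 2 * max (-(P * Q) - l) 0 ≤ PhX l u P U + PhY l u η Q V := by
  have hX := PhX_nonneg l u P U
  have hY := PhY_nonneg l u η Q V
  rcases le_or_gt (-(P * Q) - l) 0 with h0 | h0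
  · rw [max_eq_right h0, mul_zero]
    linarith
  rw [max_eq_left h0.le]
  have hQP : Q ^ 2 ≤ P ^ 2 := sq_le_sq.2 h
  have hPQ2 : -(P * Q) ≤ P ^ 2 := by nlinarith [sq_nonneg (P + Q)]
  rcases le_or_gt |U| u with hU | hU
  · -- the `y` view
    have hs := Real.sq_sqrt hl.le
    have hs0 := Real.sqrt_pos.2 hl
    have hd : (2 * √l) ^ 2 ≤ (P - Q) ^ 2 := by nlinarith [sq_nonneg (P + Q)]
    have hd2 : 2 * √l ≤ |U - V| := by
      rw [← hPQ]
      have := sq_le_sq.1 hd
      rwa [abs_of_pos (by positivity : (0 : ℝ) < 2 * √l)] at this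
    have hV : 2 * √l - u ≤ |V| := by
      have := abs_sub U V
      linarith
    have hUV : |U| ≤ η * |V| := by
      refine hU.trans (hηu.trans (mul_le_mul_of_nonneg_left hV hη))
    have hUV2 : (P - Q) ^ 2 ≤ (1 + η) ^ 2 * V ^ 2 := by
      rw [hPQ, ← mul_pow, ← sq_abs ((1 + η) * V), ← sq_abs (U - V)]
      refine pow_le_pow_left₀ (abs_nonneg _) ?_ 2
      rw [abs_mul, abs_of_nonneg (by linarith : (0 : ℝ) ≤ 1 + η)]
      have := abs_sub U V
      nlinarith
    have hW : -(P * Q) - l ≤ V * Q - Q ^ 2 + u * |Q| - l := by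
      have e : P = Q - V + U := by linarith
      have h3 : -(U * Q) ≤ u * |Q| := by
        have h4 := neg_abs_le (U * Q)
        rw [abs_mul] at h4
        have h5 := mul_le_mul_of_nonneg_right hU (abs_nonneg Q)
        linarith
      rw [e]
      nlinarith
    have h6 : (P - Q) ^ 2 * (-(P * Q) - l) ≤ PhY l u η Q V := by
      unfold PhY
      refine mul_le_mul hUV2 (hW.trans (le_max_left _ _)) h0.le (by positivity)
    linarith
  · -- the `x` view
    have h1 : 1 ≤ (U / u) ^ 2 := by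
      rw [div_pow, one_le_div (by positivity), ← sq_abs U]
      exact pow_le_pow_left₀ hu.le hU.le 2
    have h2 : (P - Q) ^ 2 ≤ 4 * P ^ 2 := by nlinarith [sq_nonneg (P + Q)]
    have h3 : (P - Q) ^ 2 * (-(P * Q) - l) ≤ 4 * P ^ 2 * max (P ^ 2 - l) 0 :=
      mul_le_mul h2 (le_trans (by linarith) (le_max_left _ _)) h0.le (by positivity)
    have h4 : 4 * P ^ 2 * max (P ^ 2 - l) 0 * 1 ≤ PhX l u P U := by
      unfold PhX
      exact mul_le_mul_of_nonneg_left h1 (by positivity)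
    linarith

/-- the splitting -/
theorem det {P Q U V l u η : ℝ} (hPQ : P - Q = U - V) (hl : 0 < l) (hu : 0 < u) (hη : 0 ≤ η)
    (hηu : u ≤ η * (2 * √l - u)) :
    (P - Q) ^ 2 * max (-(P * Q) - l) 0
      ≤ (PhX l u P U + PhY l u η P U) + (PhX l u Q V + PhY l u η Q V) := by
  have a1 := PhX_nonneg l u P U
  have a2 := PhY_nonneg l u η Q V
  have a3 := PhX_nonneg l u Q V
  have a4 := PhY_nonneg l u η P U
  rcases le_total |Q| |P| with h | h
  · have := det_half hPQ hl hu hη hηu h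
    linarith
  · have h1 : Q - P = V - U := by linarith
    have := det_half h1 hl hu hη hηu h
    have e : (P - Q) ^ 2 * max (-(P * Q) - l) 0 = (Q - P) ^ 2 * max (-(Q * P) - l) 0 := by
      rw [mul_comm Q P]
      ring
    rw [e]
    linarith

/-- the constant of the power domination of `(X - l)₊` -/
noncomputable def cc (j : ℕ) : ℝ := (j : ℝ) ^ j / ((j : ℝ) + 1) ^ (j + 1)

lemma cc_nonneg (j : ℕ) : 0 ≤ cc j := by
  unfold cc
  positivity

/-- `(X - l)₊ ≤ c X^(j+1) / l^j` -/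
lemma tail_pow (j : ℕ) {X l : ℝ} (hX : 0 ≤ X) (hl : 0 < l) :
    max (X - l) 0 ≤ cc j * X ^ (j + 1) / l ^ j := by
  have h0 : 0 ≤ cc j * X ^ (j + 1) / l ^ j := by
    have := cc_nonneg j
    positivity
  refine max_le ?_ h0
  rcases Nat.eq_zero_or_pos j with rfl | hj
  · simp [cc]
    linarith
  have hj' : (0 : ℝ) < j := by exact_mod_cast hj
  -- Bernoulli
  obtain ⟨x, hx⟩ : ∃ x, x = X / l := ⟨_, rfl⟩
  have hx0 : 0 ≤ x := by
    rw [hx]
    positivity
  have hb := one_add_mul_le_pow (R := ℝ) (a := x * (j / (j + 1)) - 1) (by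
    have : 0 ≤ x * (j / (j + 1)) := by positivity
    linarith) (j + 1)
  rw [show 1 + (x * ((j : ℝ) / (j + 1)) - 1) = x * (j / (j + 1)) by ring, mul_pow, div_pow] at hb
  push_cast at hb
  have e1 : 1 + ((j : ℝ) + 1) * (x * (j / (j + 1)) - 1) = j * (x - 1) := by
    field_simp
    ring
  rw [e1] at hb
  have h2 : x - 1 ≤ cc j * x ^ (j + 1) := by
    have h3 : (j : ℝ) * (x - 1) ≤ j * (cc j * x ^ (j + 1)) := by
      refine hb.trans (le_of_eq ?_)
      unfold cc
      rw [pow_succ (j : ℝ) j]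
      field_simp
    exact le_of_mul_le_mul_left h3 hj'
  have h4 := mul_le_mul_of_nonneg_left h2 hl.le
  have e2 : l * (x - 1) = X - l := by
    rw [hx]
    field_simp
  have e3 : l * (cc j * x ^ (j + 1)) = cc j * X ^ (j + 1) / l ^ j := by
    rw [hx, div_pow, pow_succ l j]
    field_simp
  rw [e2, e3] at h4
  exact h4

/-- the quadratic form bound -/
lemma quad_bound {a b C : ℝ} (hC : 0 < C) : -(a * b) ≤ (C * a - b / C) ^ 2 / 4 := by
  have h := sq_nonneg (C * a + b / C)
  have e : (C * a + b / C) ^ 2 = (C * a - b / C) ^ 2 + 4 * (a * b) := by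
    field_simp
    ring
  linarith

end Vale.Agent.P224.R2.H876
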