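import Vale.Agent.P224.R2.H876.TlDet

/-!
Deterministic part of the relative tail bound with a smooth cut: the pair tail
`(P-Q)²(-PQ-l)₊` with `P - Q = U - V` is split according to the size of `|U| / |P - Q|`.
-/

namespace Vale.Agent.P224.R2.H876

/-- the main part, cut off smoothly at `|U| = η |P - Q|` and restricted to `|U| ≤ |V|` -/
noncomputable def G1 (l η P Q U V : ℝ) : ℝ :=
  if |U| ≤ |V| then max ((P - Q) ^ 2 - (U / η) ^ 2) 0 * max (-(P * Q) - l) 0 else 0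

/-- the remainder -/
noncomputable def G2 (l η β Q V : ℝ) : ℝ :=
  1 / (2 * η ^ 2) * V ^ 2 * max (β * Q ^ 2 - l) 0 + 2 * V ^ 2 * max (Q ^ 2 / β - l) 0

lemma G1_nonneg (l η P Q U V : ℝ) : 0 ≤ G1 l η P Q U V := by
  unfold G1
  split_ifs <;> positivity

lemma G2_nonneg (l η β Q V : ℝ) : 0 ≤ G2 l η β Q V := by
  unfold G2
  positivity

/-- one half of the splitting -/
lemma det2_half {P Q U V l η β : ℝ} (hPQ : P - Q = U - V) (hη : 0 < η) (hβ : 0 < β)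
    (h : |U| ≤ |V|) :
    (P - Q) ^ 2 * max (-(P * Q) - l) 0 ≤ G1 l η P Q U V
      + (1 / (2 * η ^ 2) * U ^ 2 * max (β * P ^ 2 - l) 0 + 2 * V ^ 2 * max (Q ^ 2 / β - l) 0) := by
  unfold G1
  rw [if_pos h]
  set F := max (-(P * Q) - l) 0 with hF
  set A := max (β * P ^ 2 - l) 0 with hA
  set B := max (Q ^ 2 / β - l) 0 with hB
  have hF0 : 0 ≤ F := le_max_right _ _
  have hA0 : 0 ≤ A := le_max_right _ _
  have hB0 : 0 ≤ B := le_max_right _ _
  -- the weights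
  have h1 : F ≤ A / 2 + B / 2 := by
    refine max_le ?_ (by positivity)
    have e1 : β * P ^ 2 - l ≤ A := le_max_left _ _
    have e2 : Q ^ 2 / β - l ≤ B := le_max_left _ _
    have e3 : -(P * Q) ≤ (β * P ^ 2 + Q ^ 2 / β) / 2 := by
      have e4 : β * P ^ 2 + Q ^ 2 / β = (β * P + Q) ^ 2 / β - 2 * (P * Q) := by
        field_simp
        ring
      have e5 : 0 ≤ (β * P + Q) ^ 2 / β := by positivity
      rw [e4]
      linarith
    linarith
  have h2 : (P - Q) ^ 2 ≤ 4 * V ^ 2 := by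
    rw [hPQ]
    have e1 : |U - V| ≤ 2 * |V| := by
      have := abs_sub U V
      linarith
    rw [← sq_abs (U - V), show 4 * V ^ 2 = (2 * |V|) ^ 2 by rw [mul_pow, sq_abs]; ring]
    exact pow_le_pow_left₀ (abs_nonneg _) e1 2
  have h3 : (P - Q) ^ 2 * F ≤ max ((P - Q) ^ 2 - (U / η) ^ 2) 0 * F
      + min ((P - Q) ^ 2) ((U / η) ^ 2) * F := by
    rw [← add_mul]
    refine mul_le_mul_of_nonneg_right ?_ hF0
    rcases le_total ((P - Q) ^ 2) ((U / η) ^ 2) with h4 | h4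
    · rw [min_eq_left h4]
      have := le_max_right ((P - Q) ^ 2 - (U / η) ^ 2) 0
      linarith
    · rw [min_eq_right h4]
      have := le_max_left ((P - Q) ^ 2 - (U / η) ^ 2) 0
      linarith
  have h4 : min ((P - Q) ^ 2) ((U / η) ^ 2) * F ≤ (U / η) ^ 2 * (A / 2) + 4 * V ^ 2 * (B / 2) := by
    have e0 : 0 ≤ min ((P - Q) ^ 2) ((U / η) ^ 2) := le_min (sq_nonneg _) (sq_nonneg _)
    have e1 := mul_le_mul_of_nonneg_left h1 e0
    have e2 : min ((P - Q) ^ 2) ((U / η) ^ 2) * (A / 2) ≤ (U / η) ^ 2 * (A / 2) :=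
      mul_le_mul_of_nonneg_right (min_le_right _ _) (by positivity)
    have e3 : min ((P - Q) ^ 2) ((U / η) ^ 2) * (B / 2) ≤ 4 * V ^ 2 * (B / 2) :=
      mul_le_mul_of_nonneg_right ((min_le_left _ _).trans h2) (by positivity)
    linarith
  have e6 : (U / η) ^ 2 * (A / 2) = 1 / (2 * η ^ 2) * U ^ 2 * A := by
    field_simp
  rw [e6] at h4
  linarith

/-- the splitting -/
theorem det2 {P Q U V l η β : ℝ} (hPQ : P - Q = U - V) (hη : 0 < η) (hβ : 0 < β) :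
    (P - Q) ^ 2 * max (-(P * Q) - l) 0 ≤ (G1 l η P Q U V + G2 l η β Q V)
      + (G1 l η Q P V U + G2 l η β P U) := by
  have a1 := G1_nonneg l η P Q U V
  have a2 := G1_nonneg l η Q P V U
  have a3 : 0 ≤ 1 / (2 * η ^ 2) * V ^ 2 * max (β * Q ^ 2 - l) 0 := by positivity
  have a4 : 0 ≤ 2 * U ^ 2 * max (P ^ 2 / β - l) 0 := by positivity
  have a5 : 0 ≤ 1 / (2 * η ^ 2) * U ^ 2 * max (β * P ^ 2 - l) 0 := by positivity
  have a6 : 0 ≤ 2 * V ^ 2 * max (Q ^ 2 / β - l) 0 := by positivity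
  unfold G2
  rcases le_total |U| |V| with h | h
  · have := det2_half (l := l) hPQ hη hβ h
    linarith
  · have h1 : Q - P = V - U := by linarith
    have := det2_half (l := l) h1 hη hβ h
    have e : (P - Q) ^ 2 * max (-(P * Q) - l) 0 = (Q - P) ^ 2 * max (-(Q * P) - l) 0 := by
      rw [mul_comm Q P]
      ring
    rw [e]
    linarith

/-- the main part in terms of one role -/
theorem G1_le {P Q U V l η K B : ℝ} (hPQ : P - Q = U - V) (hl : 0 < l) (hη : 0 < η)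
    (hη1 : η < 1) (j : ℕ) (hK0 : 0 ≤ K)
    (hK : ∀ ρ, 0 ≤ ρ → ρ ≤ η → 1 - ρ ^ 2 / η ^ 2 ≤ K * (1 - ρ) ^ (2 * j + 4))
    (hB0 : 0 ≤ B) (hB : ∀ r, 0 ≤ r → r ≤ 1 → r * V * Q - r ^ 2 * Q ^ 2 ≤ B) :
    G1 l η P Q U V ≤ K * (cc j / l ^ j) * (V ^ 2 * B ^ (j + 1)) := by
  have hcj := cc_nonneg j
  have h0 : 0 ≤ K * (cc j / l ^ j) * (V ^ 2 * B ^ (j + 1)) := by positivity
  unfold G1
  split_ifs with hUV
  swap
  · exact h0
  rcases le_or_gt (-(P * Q) - l) 0 with h1 | h1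
  · rw [max_eq_right h1, mul_zero]
    exact h0
  rcases le_or_gt ((P - Q) ^ 2 - (U / η) ^ 2) 0 with h2 | h2
  · rw [max_eq_right h2, zero_mul]
    exact h0
  rw [max_eq_left h1.le, max_eq_left h2.le]
  -- the ratio
  obtain ⟨W, hW⟩ : ∃ W, W = P - Q := ⟨_, rfl⟩
  rw [← hW] at h2 ⊢
  have hW0 : 0 < |W| := by
    rw [abs_pos]
    rintro rfl
    have := sq_nonneg (U / η)
    nlinarith
  obtain ⟨ρ, hρ⟩ : ∃ ρ, ρ = |U| / |W| := ⟨_, rfl⟩
  have hU : |U| = ρ * |W| := by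
    rw [hρ]
    field_simp
  have hρ0 : 0 ≤ ρ := by
    rw [hρ]
    positivity
  have hρη : ρ ≤ η := by
    have h3 : (U / η) ^ 2 ≤ W ^ 2 := by linarith
    have h4 := sq_le_sq.1 h3
    rw [abs_div, abs_of_pos hη, div_le_iff₀ hη] at h4
    rw [hρ, div_le_iff₀ hW0]
    linarith
  have hr0 : 0 < 1 - ρ := by linarith
  have hV : (1 - ρ) * |W| ≤ |V| := by
    have e1 : V = U - W := by rw [hW, hPQ]; ring
    have e2 : |W| ≤ |U| + |V| := by
      have e3 : W = U - V := by rw [e1]; ring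
      rw [e3]
      exact abs_sub U V
    rw [hU] at e2
    linarith
  have hW2 : W ^ 2 - (U / η) ^ 2 = W ^ 2 * (1 - ρ ^ 2 / η ^ 2) := by
    rw [← sq_abs (U / η), abs_div, abs_of_pos hη, hU, ← sq_abs W]
    field_simp
  -- the sign
  have hPQneg : -(P * Q) ≤ |Q| * |W| - Q ^ 2 := by
    have e1 : P = Q + W := by rw [hW]; ring
    have e2 := neg_abs_le (Q * W)
    rw [abs_mul] at e2
    rw [e1]
    nlinarith
  have hQW : Q * V ≥ 0 ∧ |Q| * |W| * (1 - ρ) ≤ Q * V := by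
    -- Q W < 0
    have e1 : P = Q + W := by rw [hW]; ring
    have e2 : Q * W < 0 := by
      rw [e1] at h1
      nlinarith [sq_nonneg Q]
    have e3 : V = U - W := by rw [hW, hPQ]; ring
    have e4 : |Q| * |W| = -(Q * W) := by rw [← abs_mul, abs_of_neg e2]
    have e5 : -(|Q| * |U|) ≤ Q * U := by
      rw [← abs_mul]
      exact neg_abs_le _
    rw [hU] at e5
    have e6 : |Q| * |W| * (1 - ρ) ≤ Q * V := by
      rw [e3, mul_sub]
      nlinarith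
    exact ⟨le_trans (by positivity) e6, e6⟩
  have hmain : -(P * Q) ≤ B / (1 - ρ) ^ 2 := by
    rw [le_div_iff₀ (by positivity)]
    have e1 := hB (1 - ρ) hr0.le (by linarith)
    have e2 := mul_le_mul_of_nonneg_right hPQneg (by positivity : (0 : ℝ) ≤ (1 - ρ) ^ 2)
    have e3 := mul_le_mul_of_nonneg_right hQW.2 hr0.le
    nlinarith
  have hX0 : 0 ≤ B / (1 - ρ) ^ 2 := by positivity
  have t1 := tail_pow j hX0 hl
  have t2 : -(P * Q) - l ≤ cc j * (B / (1 - ρ) ^ 2) ^ (j + 1) / l ^ j :=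
    ((sub_le_sub_right hmain l).trans (le_max_left _ _)).trans t1
  have t3 : W ^ 2 ≤ V ^ 2 / (1 - ρ) ^ 2 := by
    rw [le_div_iff₀ (by positivity), ← mul_pow, ← sq_abs (W * (1 - ρ)), ← sq_abs V]
    refine pow_le_pow_left₀ (abs_nonneg _) ?_ 2
    rw [abs_mul, abs_of_pos hr0]
    linarith
  have hwt : 0 ≤ 1 - ρ ^ 2 / η ^ 2 := by
    rw [sub_nonneg, div_le_one (by positivity)]
    exact pow_le_pow_left₀ hρ0 hρη 2
  have t4 : W ^ 2 - (U / η) ^ 2 ≤ V ^ 2 / (1 - ρ) ^ 2 * (K * (1 - ρ) ^ (2 * j + 4)) := by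
    rw [hW2]
    exact mul_le_mul t3 (hK ρ hρ0 hρη) hwt (by positivity)
  calc (W ^ 2 - (U / η) ^ 2) * (-(P * Q) - l)
      ≤ (V ^ 2 / (1 - ρ) ^ 2 * (K * (1 - ρ) ^ (2 * j + 4)))
        * (cc j * (B / (1 - ρ) ^ 2) ^ (j + 1) / l ^ j) :=
        mul_le_mul t4 t2 h1.le (by positivity)
    _ = K * (cc j / l ^ j) * (V ^ 2 * B ^ (j + 1)) := by
        rw [div_pow, ← pow_mul, show 2 * j + 4 = 2 + 2 * (j + 1) by ring, pow_add]
        field_simp

/-- a sufficient condition for the constant `K` -/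
lemma K_ok {η K : ℝ} (hη : 0 < η) (j : ℕ) (hb : ((j : ℝ) + 2) * η ≤ 1) (hK0 : 0 ≤ K)
    (h : 1 ≤ K * (1 - (((j : ℝ) + 2) * η) ^ 2)) :
    ∀ ρ, 0 ≤ ρ → ρ ≤ η → 1 - ρ ^ 2 / η ^ 2 ≤ K * (1 - ρ) ^ (2 * j + 4) := by
  intro ρ h0 h1
  have hη1 : η ≤ 1 := by nlinarith [Nat.cast_nonneg (α := ℝ) j]
  have hb1 := one_add_mul_le_pow (R := ℝ) (a := -ρ) (by linarith) (j + 2)
  push_cast at hb1
  rw [← sub_eq_add_neg] at hb1
  have h2 : ((j : ℝ) + 2) * ρ ≤ 1 :=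
    (mul_le_mul_of_nonneg_left h1 (by positivity)).trans hb
  have h3 := pow_le_pow_left₀ (by linarith : 0 ≤ 1 + ((j : ℝ) + 2) * -ρ) hb1 2
  rw [← pow_mul, show (j + 2) * 2 = 2 * j + 4 by ring] at h3
  refine le_trans ?_ (mul_le_mul_of_nonneg_left h3 hK0)
  obtain ⟨x, hx⟩ : ∃ x, x = ρ / η := ⟨_, rfl⟩
  have hρ : ρ = x * η := by rw [hx]; field_simp
  have hx0 : 0 ≤ x := by rw [hx]; positivity
  have hx1 : x ≤ 1 := by rw [hx, div_le_one hη]; exact h1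
  rw [← div_pow, ← hx, hρ]
  obtain ⟨b, hbb⟩ : ∃ b, b = ((j : ℝ) + 2) * η := ⟨_, rfl⟩
  have e1 : (1 + ((j : ℝ) + 2) * -(x * η)) = 1 - b * x := by rw [hbb]; ring
  rw [e1]
  rw [← hbb] at h
  have h4 : 0 ≤ 1 - x ^ 2 := by nlinarith
  have h5 := mul_le_mul_of_nonneg_right h h4
  have h6 : (1 - b ^ 2) * (1 - x ^ 2) ≤ (1 - b * x) ^ 2 := by nlinarith [sq_nonneg (x - b)]
  have h7 := mul_le_mul_of_nonneg_left h6 hK0
  linarith

end Vale.Agent.P224.R2.H876
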