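import Vale.Agent.P224.R2.H876.Tl
import Vale.Agent.P224.R2.H869.Mom

/-!
The moment constants of the relative tail bound: instance from the conformal volume bound, and
numerical bounds, uniform below a given dimension, or uniform in the dimension.
-/

namespace Vale.Agent.P224.R2.H876

open MeasureTheory Set Function Module Vale.Agent.P224 Vale.Agent.P224.SM2
  Vale.Agent.P224.R2.H869 Vale.Agent.P224.R2.H582 Vale.Agent.P224.R2.H484
  Vale.Agent.P224.R2.H728
open scoped RealInnerProductSpace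

set_option linter.unusedSectionVars false

/-- the moment constants in normalised form -/
noncomputable def MM (m q : ℕ) : ℝ := √(m : ℝ) ^ q * Mo (m - 1) q

lemma MM_nonneg (m q : ℕ) : 0 ≤ MM m q := by
  unfold MM
  have := Mo_nonneg (m - 1) q
  positivity

section

variable {X : Type*} [MeasurableSpace X] {E : Type*} [NormedAddCommGroup E]
  [InnerProductSpace ℝ E] [MeasurableSpace E] [BorelSpace E] [SecondCountableTopology E]
  {μ : Measure X} [IsFiniteMeasure μ] {m : ℕ} {p : X → E}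

/-- the instance -/
theorem momB_of_cv (h : CV μ (m - 1) p) (hm : 2 ≤ m) : MomB μ m p (MM m) := by
  intro T hT y hy b q
  have h1 := mom_one h (by omega : 0 < m - 1) hT hy b q
  have e1 : ∫ x, ((1 - T * ⟪p x, y⟫) ^ (m - 1))⁻¹ * |√m * ⟪b, mob T y (p x)⟫| ^ q ∂μ
      = √(m : ℝ) ^ q * ∫ x, ((1 - T * ⟪p x, y⟫) ^ (m - 1))⁻¹ * |⟪b, mob T y (p x)⟫| ^ q ∂μ := by
    rw [← integral_const_mul]
    refine integral_congr_ae (Filter.Eventually.of_forall fun x => ?_)
    simp only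
    rw [abs_mul, abs_of_nonneg (Real.sqrt_nonneg _), mul_pow]
    ring
  rw [e1]
  have h2 := mul_le_mul_of_nonneg_left h1 (by positivity : (0 : ℝ) ≤ √(m : ℝ) ^ q)
  unfold MM
  calc _ = √(m : ℝ) ^ q * (√(1 - T ^ 2) ^ (m - 1) *
        ∫ x, ((1 - T * ⟪p x, y⟫) ^ (m - 1))⁻¹ * |⟪b, mob T y (p x)⟫| ^ q ∂μ) := by ring
    _ ≤ _ := h2
    _ = _ := by ring

lemma MomB.mono {M M' : ℕ → ℝ} (hM : MomB μ m p M) (h : ∀ q, M q ≤ M' q) : MomB μ m p M' := by
  intro T hT y hy b q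
  refine (hM T hT y hy b q).trans ?_
  have hA : 0 ≤ μ.real univ := measureReal_nonneg
  gcongr
  exact h q

end

/-- the logarithm of the square of the constants -/
noncomputable def lg (q t : ℝ) : ℝ :=
  q * Real.log (t + 1) + t * Real.log t - (t + q) * Real.log (t + q)

lemma MM_sq {m q : ℕ} (hm : 2 ≤ m) : MM m q ^ 2
    = 4 * ((q : ℝ) ^ q * (m : ℝ) ^ q * ((m - 1 : ℕ) : ℝ) ^ (m - 1)
      / (((m - 1 : ℕ) : ℝ) + q) ^ (m - 1 + q)) := by
  have h0 : (0 : ℝ) < ((m - 1 : ℕ) : ℝ) := by exact_mod_cast (by omega : 0 < m - 1)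
  have hq : (0 : ℝ) ≤ q := by positivity
  unfold MM Mo
  have e1 : (√(m : ℝ) ^ q) ^ 2 = (m : ℝ) ^ q := by
    rw [← pow_mul, mul_comm q 2, pow_mul, Real.sq_sqrt (by positivity)]
  have e2 : (√((q : ℝ) / (((m - 1 : ℕ) : ℝ) + q)) ^ q) ^ 2
      = ((q : ℝ) / (((m - 1 : ℕ) : ℝ) + q)) ^ q := by
    rw [← pow_mul, mul_comm q 2, pow_mul, Real.sq_sqrt (by positivity)]
  have e3 : (√((((m - 1 : ℕ) : ℝ)) / (((m - 1 : ℕ) : ℝ) + q)) ^ (m - 1)) ^ 2
      = (((m - 1 : ℕ) : ℝ) / (((m - 1 : ℕ) : ℝ) + q)) ^ (m - 1) := by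
    rw [← pow_mul, mul_comm (m - 1) 2, pow_mul, Real.sq_sqrt (by positivity)]
  rw [mul_pow, mul_pow, mul_pow, e1, e2, e3, div_pow, div_pow, pow_add]
  field_simp
  ring

lemma MM_sq_exp {m q : ℕ} (hm : 2 ≤ m) (hq : 1 ≤ q) : MM m q ^ 2
    = 4 * ((q : ℝ) ^ q * Real.exp (lg q ((m - 1 : ℕ) : ℝ))) := by
  have h0 : (0 : ℝ) < ((m - 1 : ℕ) : ℝ) := by exact_mod_cast (by omega : 0 < m - 1)
  have hq' : (0 : ℝ) < q := by exact_mod_cast hq
  have e1 : ((m : ℕ) : ℝ) = ((m - 1 : ℕ) : ℝ) + 1 := by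
    have : m = (m - 1) + 1 := by omega
    exact_mod_cast this
  rw [MM_sq hm]
  unfold lg
  rw [Real.exp_sub, Real.exp_add]
  have e2 : Real.exp ((q : ℝ) * Real.log (((m - 1 : ℕ) : ℝ) + 1)) = (m : ℝ) ^ q := by
    rw [mul_comm, ← Real.rpow_def_of_pos (by positivity), Real.rpow_natCast, e1]
  have e3 : Real.exp (((m - 1 : ℕ) : ℝ) * Real.log ((m - 1 : ℕ) : ℝ))
      = ((m - 1 : ℕ) : ℝ) ^ (m - 1) := by
    rw [mul_comm, ← Real.rpow_def_of_pos h0, Real.rpow_natCast]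
  have e4 : Real.exp ((((m - 1 : ℕ) : ℝ) + q) * Real.log (((m - 1 : ℕ) : ℝ) + q))
      = (((m - 1 : ℕ) : ℝ) + q) ^ (m - 1 + q) := by
    rw [mul_comm, ← Real.rpow_def_of_pos (by positivity), ← Nat.cast_add, Real.rpow_natCast]
  rw [e2, e3, e4]
  ring

lemma log_le_half {y : ℝ} (hy : 1 ≤ y) : Real.log y ≤ (y - y⁻¹) / 2 := by
  have h := Real.self_le_sinh_iff.2 (Real.log_nonneg hy)
  rwa [Real.sinh_log (by linarith)] at h

lemma lg_mono {q : ℝ} (hq : 3 ≤ q) : MonotoneOn (lg q) (Ici 3) := by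
  have hd : ∀ t : ℝ, 0 < t → HasDerivAt (lg q)
      (q * (1 / (t + 1)) + (1 * Real.log t + t * t⁻¹)
        - (1 * Real.log (t + q) + (t + q) * (1 / (t + q)))) t := by
    intro t ht
    have h1 : HasDerivAt (fun s : ℝ => Real.log (s + 1)) (1 / (t + 1)) t :=
      ((hasDerivAt_id t).add_const (1 : ℝ)).log (by simp only [id]; positivity)
    have h2 : HasDerivAt (fun s : ℝ => Real.log (s + q)) (1 / (t + q)) t :=
      ((hasDerivAt_id t).add_const q).log (by simp only [id]; positivity)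
    have h3 := (hasDerivAt_id t).mul (Real.hasDerivAt_log ht.ne')
    have h4 := ((hasDerivAt_id t).add_const q).mul h2
    exact ((h1.const_mul q).add h3).sub h4
  refine monotoneOn_of_deriv_nonneg (convex_Ici 3) ?_ ?_ ?_
  · exact fun t ht => (hd t (by have := mem_Ici.1 ht; linarith)).continuousAt.continuousWithinAt
  · intro t ht
    rw [interior_Ici] at ht
    exact (hd t (by have := mem_Ioi.1 ht; linarith)).differentiableAt.differentiableWithinAt
  · intro t ht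
    rw [interior_Ici] at ht
    have ht3 : 3 < t := ht
    have ht0 : 0 < t := by linarith
    rw [(hd t ht0).deriv]
    have h1 := log_le_half (y := (t + q) / t) (by rw [le_div_iff₀ ht0]; linarith)
    rw [Real.log_div (by positivity) ht0.ne'] at h1
    have h2 : ((t + q) / t - ((t + q) / t)⁻¹) / 2 ≤ q * (1 / (t + 1)) := by
      rw [inv_div, div_sub_div _ _ ht0.ne' (by positivity), div_div, mul_one_div,
        div_le_div_iff₀ (by positivity) (by positivity)]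
      nlinarith [mul_nonneg (by linarith : (0 : ℝ) ≤ q) (by nlinarith :
        (0 : ℝ) ≤ (t - 1) * (q - 2) - 2)]
    have h3 : t * t⁻¹ = 1 := mul_inv_cancel₀ ht0.ne'
    have h4 : (t + q) * (1 / (t + q)) = 1 := mul_one_div_cancel (by positivity)
    rw [h3, h4]
    linarith

/-- the constants increase with the dimension -/
theorem MM_mono {m m' q : ℕ} (hm : 4 ≤ m) (hmm : m ≤ m') (hq : 3 ≤ q) : MM m q ≤ MM m' q := by
  refine (sq_le_sq₀ (MM_nonneg _ _) (MM_nonneg _ _)).1 ?_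
  rw [MM_sq_exp (by omega) (by omega), MM_sq_exp (by omega) (by omega)]
  have hq' : (3 : ℝ) ≤ q := by exact_mod_cast hq
  have h1 : (3 : ℝ) ≤ ((m - 1 : ℕ) : ℝ) := by exact_mod_cast (by omega : 3 ≤ m - 1)
  have h2 : ((m - 1 : ℕ) : ℝ) ≤ ((m' - 1 : ℕ) : ℝ) := by exact_mod_cast (by omega : m - 1 ≤ m' - 1)
  have h3 := lg_mono hq' h1 (h1.trans h2) h2
  gcongr

/-- numerical bound below a dimension -/
theorem MM_le {m m' q : ℕ} (hm : 4 ≤ m) (hmm : m ≤ m') (hq : 3 ≤ q) {a b : ℕ} (hb : 0 < b)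
    (h : 4 * q ^ q * m' ^ q * (m' - 1) ^ (m' - 1) * b ^ 2
      ≤ a ^ 2 * (m' - 1 + q) ^ (m' - 1 + q)) : MM m q ≤ a / b := by
  refine (MM_mono hm hmm hq).trans ?_
  refine (sq_le_sq₀ (MM_nonneg _ _) (by positivity)).1 ?_
  have hb' : (0 : ℝ) < b := by exact_mod_cast hb
  have h0 : (0 : ℝ) < ((m' - 1 : ℕ) : ℝ) + q := by positivity
  rw [MM_sq (by omega), div_pow, ← mul_div_assoc, div_le_div_iff₀ (by positivity) (by positivity)]
  have h' : (4 : ℝ) * q ^ q * m' ^ q * ((m' - 1 : ℕ) : ℝ) ^ (m' - 1) * b ^ 2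
      ≤ a ^ 2 * (((m' - 1 : ℕ) : ℝ) + q) ^ (m' - 1 + q) := by exact_mod_cast h
  linarith

/-- the bound of the logarithm, uniform in the dimension -/
lemma lg_le {q t : ℝ} (hq : 3 ≤ q) (ht : 0 < t) : lg q t ≤ -q := by
  have h1 := Real.le_log_one_add_of_nonneg (x := (q - 1) / (t + 1)) (by
    have : 0 ≤ q - 1 := by linarith
    positivity)
  have h2 := Real.le_log_one_add_of_nonneg (x := q / t) (by positivity)
  have e1 : 1 + (q - 1) / (t + 1) = (t + q) / (t + 1) := by field_simp; ring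
  have e2 : 1 + q / t = (t + q) / t := by field_simp
  have hq0 : 0 < q := by linarith
  have e3 : 2 * ((q - 1) / (t + 1)) / ((q - 1) / (t + 1) + 2) = 2 * (q - 1) / (2 * t + q + 1) := by
    have e5 : (q - 1) / (t + 1) + 2 = (2 * t + q + 1) / (t + 1) := by
      field_simp
      ring
    rw [e5, div_div_eq_mul_div, mul_assoc, div_mul_cancel₀ _ (by positivity)]
  have e4 : 2 * (q / t) / (q / t + 2) = 2 * q / (2 * t + q) := by
    field_simp
    ring
  rw [e1, e3, Real.log_div (by positivity) (by positivity)] at h1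
  rw [e2, e4, Real.log_div (by positivity) (by positivity)] at h2
  unfold lg
  have h3 := mul_le_mul_of_nonneg_left h1 (by linarith : (0 : ℝ) ≤ q)
  have h4 := mul_le_mul_of_nonneg_left h2 ht.le
  have h5 : q ≤ q * (2 * (q - 1) / (2 * t + q + 1)) + t * (2 * q / (2 * t + q)) := by
    rw [← mul_div_assoc, ← mul_div_assoc, div_add_div _ _ (by positivity) (by positivity),
      le_div_iff₀ (by positivity)]
    have h6 : 0 ≤ q * (2 * t * (q - 2) + q * (q - 3)) := by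
      have : 0 ≤ q - 2 := by linarith
      have : 0 ≤ q - 3 := by linarith
      positivity
    nlinarith
  nlinarith

/-- numerical bound, uniform in the dimension -/
theorem MM_le_inf {m q : ℕ} (hm : 2 ≤ m) (hq : 3 ≤ q) {a b : ℕ} (hb : 0 < b)
    (h : 4 * (q * 10 ^ 9) ^ q * b ^ 2 ≤ a ^ 2 * 2718281828 ^ q) : MM m q ≤ a / b := by
  refine (sq_le_sq₀ (MM_nonneg _ _) (by positivity)).1 ?_
  have hb' : (0 : ℝ) < b := by exact_mod_cast hb
  have hq' : (3 : ℝ) ≤ q := by exact_mod_cast hq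
  rw [MM_sq_exp hm (by omega)]
  have h0 : (0 : ℝ) < ((m - 1 : ℕ) : ℝ) := by exact_mod_cast (by omega : 0 < m - 1)
  have h1 := Real.exp_le_exp.2 (lg_le hq' h0)
  have h2 : Real.exp (-(q : ℝ)) = ((Real.exp 1) ^ q)⁻¹ := by
    rw [Real.exp_neg, ← Real.exp_nat_mul, mul_one]
  rw [h2] at h1
  have h3 : (2718281828 / 10 ^ 9 : ℝ) ^ q ≤ Real.exp 1 ^ q := by
    have := Real.exp_one_gt_d9
    gcongr
    linarith
  have h4 : (Real.exp 1 ^ q)⁻¹ ≤ ((2718281828 / 10 ^ 9 : ℝ) ^ q)⁻¹ := inv_anti₀ (by positivity) h3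
  have h5 : (4 : ℝ) * (q * 10 ^ 9) ^ q * b ^ 2 ≤ a ^ 2 * 2718281828 ^ q := by exact_mod_cast h
  calc (4 : ℝ) * ((q : ℝ) ^ q * Real.exp (lg q ((m - 1 : ℕ) : ℝ)))
      ≤ 4 * ((q : ℝ) ^ q * ((2718281828 / 10 ^ 9 : ℝ) ^ q)⁻¹) := by
        gcongr
        exact h1.trans h4
    _ ≤ (a / b : ℝ) ^ 2 := by
        rw [div_pow, div_pow, inv_div, ← mul_div_assoc, ← mul_div_assoc,
          div_le_div_iff₀ (by positivity) (by positivity)]
        rw [mul_pow] at h5
        linarith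

end Vale.Agent.P224.R2.H876
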