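import Vale.Agent.P224.R2.H876.TlMom

/-!
The relative tail bound at level `T`: the two views at a fixed point.
-/

namespace Vale.Agent.P224.R2.H876

open MeasureTheory Set Function Module Vale.Agent.P224 Vale.Agent.P224.SM2
  Vale.Agent.P224.R2.H869 Vale.Agent.P224.R2.H582 Vale.Agent.P224.R2.H484
  Vale.Agent.P224.R2.H728
open scoped RealInnerProductSpace

set_option linter.unusedSectionVars false

/-- the moment polynomial of the second factor -/
noncomputable def mp2 (M : ℕ → ℝ) (q : ℕ) (s d : ℝ) : ℝ :=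
  M (q + 2) * d ^ 2 + 2 * s * (M (q + 1) * d) + s ^ 2 * M q

/-- the bound of the `x` view -/
noncomputable def XV (M : ℕ → ℝ) (j : ℕ) (l u s d : ℝ) : ℝ :=
  4 / u ^ 2 * (cc j / l ^ j) * mp2 M (2 * j + 4) s d

/-- the bound of the `y` view -/
noncomputable def YV (M : ℕ → ℝ) (j : ℕ) (l u η s d lam : ℝ) : ℝ :=
  (1 + η) ^ 2 * (cc j / l ^ j) * ∑ i ∈ Finset.range (j + 2),
    ((j + 1).choose i : ℝ) * (lam ^ i * (s + u) ^ (j + 1 - i)) * mp2 M (j + 1 + i) s d

section

variable {X : Type*} [MeasurableSpace X] {E : Type*} [NormedAddCommGroup E]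
  [InnerProductSpace ℝ E] [MeasurableSpace E] [BorelSpace E] [SecondCountableTopology E]
  {μ : Measure X} [IsFiniteMeasure μ] {m : ℕ} {p n z : X → E}

/-- the moment of `|ξ a|^i |ξ b|^j (|ξ c| + s)^2` -/
lemma MomB.sq {M : ℕ → ℝ} (hM : MomB μ m p M) (hp : FV.Pts p n) {T : ℝ}
    (hT : T ∈ Ico (0 : ℝ) 1) {y : E} (hy : ‖y‖ = 1) (a b c : E) (i j : ℕ) {s : ℝ} (hs : 0 ≤ s) :
    ∫ x, wt m T (p x) y * (|xi m T y a (p x)| ^ i * |xi m T y b (p x)| ^ j
      * (|xi m T y c (p x)| + s) ^ 2) ∂μ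
      ≤ μ.real univ * (‖a‖ ^ i * ‖b‖ ^ j * mp2 M (i + j) s ‖c‖) := by
  have bw := bm_wt (m := m) hp hT hy
  have ba := bm_abs (bm_xi (m := m) hp hT hy a)
  have bb := bm_abs (bm_xi (m := m) hp hT hy b)
  have bc := bm_abs (bm_xi (m := m) hp hT hy c)
  have h2 := hM.three hp hT hy a b c i j 2
  have h1 := hM.three hp hT hy a b c i j 1
  have h0 := hM.three hp hT hy a b c i j 0
  have i2 := (bw.mul (((ba.pow i).mul (bb.pow j)).mul (bc.pow 2))).int (μ := μ)
  have i1 := (bw.mul (((ba.pow i).mul (bb.pow j)).mul (bc.pow 1))).int (μ := μ)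
  have i0 := (bw.mul (((ba.pow i).mul (bb.pow j)).mul (bc.pow 0))).int (μ := μ)
  have e : ∀ x, wt m T (p x) y * (|xi m T y a (p x)| ^ i * |xi m T y b (p x)| ^ j
      * (|xi m T y c (p x)| + s) ^ 2) =
      wt m T (p x) y * (|xi m T y a (p x)| ^ i * |xi m T y b (p x)| ^ j
        * |xi m T y c (p x)| ^ 2)
      + (2 * s) * (wt m T (p x) y * (|xi m T y a (p x)| ^ i * |xi m T y b (p x)| ^ j
        * |xi m T y c (p x)| ^ 1))
      + s ^ 2 * (wt m T (p x) y * (|xi m T y a (p x)| ^ i * |xi m T y b (p x)| ^ j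
        * |xi m T y c (p x)| ^ 0)) := fun x => by ring
  simp_rw [e]
  have i21 : Integrable (fun x => wt m T (p x) y * (|xi m T y a (p x)| ^ i * |xi m T y b (p x)| ^ j
        * |xi m T y c (p x)| ^ 2)
      + (2 * s) * (wt m T (p x) y * (|xi m T y a (p x)| ^ i * |xi m T y b (p x)| ^ j
        * |xi m T y c (p x)| ^ 1))) μ := i2.add (i1.const_mul _)
  rw [integral_add i21 (i0.const_mul _), integral_add i2 (i1.const_mul _), integral_const_mul,
    integral_const_mul]
  have q1 := mul_le_mul_of_nonneg_left h1 (by positivity : (0 : ℝ) ≤ 2 * s)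
  have q0 := mul_le_mul_of_nonneg_left h0 (by positivity : (0 : ℝ) ≤ s ^ 2)
  refine (add_le_add (add_le_add h2 q1) q0).trans (le_of_eq ?_)
  unfold mp2
  rw [show i + j + 0 = i + j by ring]
  ring

lemma add_sq_abs_le {a s' s : ℝ} (hs : |s'| ≤ s) : (a + s') ^ 2 ≤ (|a| + s) ^ 2 := by
  rw [← sq_abs (a + s')]
  exact pow_le_pow_left₀ (abs_nonneg _) ((abs_add_le _ _).trans (by linarith)) 2

/-- the `x` view at a fixed point -/
theorem MomB.xview {M : ℕ → ℝ} (hM : MomB μ m p M) (hp : FV.Pts p n) {T : ℝ}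
    (hT : T ∈ Ico (0 : ℝ) 1) {y : E} (hy : ‖y‖ = 1) {N c : E} (hN : ‖N‖ = 1) (j : ℕ)
    {l u s s' : ℝ} (hl : 0 < l) (hu : 0 < u) (hs : |s'| ≤ s) :
    ∫ x, wt m T (p x) y * PhX l u (xi m T y N (p x)) (xi m T y c (p x) + s') ∂μ
      ≤ μ.real univ * XV M j l u s ‖c‖ := by
  have hs0 : 0 ≤ s := (abs_nonneg _).trans hs
  have bw := bm_wt (m := m) hp hT hy
  have bN := bm_xi (m := m) hp hT hy N
  have bc := bm_xi (m := m) hp hT hy c
  have bc' := bm_abs bc
  have bN' := bm_abs bN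
  have h1 : ∫ x, wt m T (p x) y * PhX l u (xi m T y N (p x)) (xi m T y c (p x) + s') ∂μ
      ≤ ∫ x, 4 / u ^ 2 * (cc j / l ^ j) * (wt m T (p x) y * (|xi m T y N (p x)| ^ (2 * j + 4)
        * |xi m T y N (p x)| ^ 0 * (|xi m T y c (p x)| + s) ^ 2)) ∂μ := by
    refine integral_mono_of_nonneg (Filter.Eventually.of_forall fun x =>
      mul_nonneg (wt_nonneg hT (hp.np x) hy) (PhX_nonneg _ _ _ _)) ?_
      (Filter.Eventually.of_forall fun x => ?_)
    · exact ((bw.mul (((bN'.pow _).mul (bN'.pow 0)).mul ((bc'.add (BM.const s)).pow 2))).int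
        (μ := μ)).const_mul _
    · have hw := wt_nonneg (m := m) hT (hp.np x) hy
      set P := xi m T y N (p x) with hP
      set U := xi m T y c (p x) with hU
      have t1 := tail_pow j (X := P ^ 2) (l := l) (sq_nonneg P) hl
      have t2 := add_sq_abs_le (a := U) hs
      have t3 : PhX l u P (U + s') ≤ 4 / u ^ 2 * (cc j / l ^ j) * (|P| ^ (2 * j + 4)
          * |P| ^ 0 * (|U| + s) ^ 2) := by
        unfold PhX
        have e1 : |P| ^ (2 * j + 4) = P ^ 2 * (P ^ 2) ^ (j + 1) := by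
          rw [show 2 * j + 4 = 2 * (1 + (j + 1)) by ring, pow_mul, sq_abs, pow_add, pow_one]
        rw [e1, div_pow]
        have h4 : 4 * P ^ 2 * max (P ^ 2 - l) 0 ≤ 4 * P ^ 2 * (cc j * (P ^ 2) ^ (j + 1) / l ^ j) :=
          mul_le_mul_of_nonneg_left t1 (by positivity)
        have h5 : (U + s') ^ 2 / u ^ 2 ≤ (|U| + s) ^ 2 / u ^ 2 :=
          div_le_div_of_nonneg_right t2 (by positivity)
        have h6 : 0 ≤ cc j * (P ^ 2) ^ (j + 1) / l ^ j := by
          have := cc_nonneg j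
          positivity
        refine (mul_le_mul h4 h5 (by positivity) (by positivity)).trans (le_of_eq ?_)
        field_simp
      calc wt m T (p x) y * PhX l u P (U + s')
          ≤ wt m T (p x) y * (4 / u ^ 2 * (cc j / l ^ j) * (|P| ^ (2 * j + 4)
          * |P| ^ 0 * (|U| + s) ^ 2)) := mul_le_mul_of_nonneg_left t3 hw
        _ = _ := by ring
  refine h1.trans ?_
  rw [integral_const_mul]
  have h2 := hM.sq hp hT hy N N c (2 * j + 4) 0 hs0
  have h3 : 0 ≤ 4 / u ^ 2 * (cc j / l ^ j) := by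
    have := cc_nonneg j
    positivity
  refine (mul_le_mul_of_nonneg_left h2 h3).trans (le_of_eq ?_)
  unfold XV
  rw [hN, one_pow, one_pow, add_zero]
  ring

/-- the `y` view at a fixed point; `c` is the direction of `V`, `w = C N - C⁻¹ (N - c)` -/
theorem MomB.yview {M : ℕ → ℝ} (hM : MomB μ m p M) (hM0 : ∀ q, 0 ≤ M q) (hp : FV.Pts p n)
    {T : ℝ} (hT : T ∈ Ico (0 : ℝ) 1) {y : E} (hy : ‖y‖ = 1) {N c : E} (hN : ‖N‖ = 1) (j : ℕ)
    {l u η s s' C lam : ℝ} (hl : 0 < l) (hu : 0 < u) (hs : |s'| ≤ s) (hC : 0 < C)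
    (hlam : ‖C • N - C⁻¹ • (N - c)‖ ^ 2 ≤ 4 * lam) :
    ∫ x, wt m T (p x) y * PhY l u η (xi m T y N (p x)) (xi m T y c (p x) + s') ∂μ
      ≤ μ.real univ * YV M j l u η s ‖c‖ lam := by
  have hs0 : 0 ≤ s := (abs_nonneg _).trans hs
  have hA : 0 ≤ μ.real univ := measureReal_nonneg
  set w : E := C • N - C⁻¹ • (N - c) with hw
  have hlam0 : 0 ≤ lam := by
    have := sq_nonneg ‖w‖
    linarith
  have bw := bm_wt (m := m) hp hT hy
  have bN := bm_abs (bm_xi (m := m) hp hT hy N)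
  have bc := bm_abs (bm_xi (m := m) hp hT hy c)
  have bww := bm_abs (bm_xi (m := m) hp hT hy w)
  have hcj := cc_nonneg j
  set K : ℝ := (1 + η) ^ 2 * (cc j / l ^ j) with hK
  have hK0 : 0 ≤ K := by positivity
  have bi : ∀ i, BM (fun x => wt m T (p x) y * (|xi m T y w (p x)| ^ (2 * i)
      * |xi m T y N (p x)| ^ (j + 1 - i) * (|xi m T y c (p x)| + s) ^ 2)) := fun i =>
    bw.mul (((bww.pow _).mul (bN.pow _)).mul ((bc.add (BM.const s)).pow 2))
  have h1 : ∫ x, wt m T (p x) y * PhY l u η (xi m T y N (p x)) (xi m T y c (p x) + s') ∂μ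
      ≤ ∫ x, ∑ i ∈ Finset.range (j + 2), (K * (((j + 1).choose i : ℝ) *
        ((1 / 4) ^ i * (s + u) ^ (j + 1 - i)))) *
        (wt m T (p x) y * (|xi m T y w (p x)| ^ (2 * i) * |xi m T y N (p x)| ^ (j + 1 - i)
          * (|xi m T y c (p x)| + s) ^ 2)) ∂μ := by
    refine integral_mono_of_nonneg (Filter.Eventually.of_forall fun x =>
      mul_nonneg (wt_nonneg hT (hp.np x) hy) (PhY_nonneg _ _ _ _ _)) ?_
      (Filter.Eventually.of_forall fun x => ?_)
    · exact (BM.sum _ fun i _ => (bi i).const_mul _).int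
    · have hwt := wt_nonneg (m := m) hT (hp.np x) hy
      set Q := xi m T y N (p x) with hQ
      set V := xi m T y c (p x) with hV
      set W := xi m T y w (p x) with hW
      have eW : W = C * Q - (Q - V) / C := by
        rw [hW, hQ, hV, hw]
        unfold xi
        rw [inner_sub_left, real_inner_smul_left, real_inner_smul_left, inner_sub_left]
        field_simp
      have t1 : (V + s') * Q - Q ^ 2 + u * |Q| - l ≤ (W ^ 2 / 4 + (s + u) * |Q|) - l := by
        have h2 := quad_bound (a := Q) (b := Q - V) hC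
        rw [← eW] at h2
        have h3 : s' * Q ≤ s * |Q| := by
          refine (le_abs_self _).trans ?_
          rw [abs_mul]
          exact mul_le_mul_of_nonneg_right hs (abs_nonneg _)
        nlinarith
      have hX0 : 0 ≤ W ^ 2 / 4 + (s + u) * |Q| := by positivity
      have t2 := tail_pow j hX0 hl
      have t3 : max ((V + s') * Q - Q ^ 2 + u * |Q| - l) 0
          ≤ cc j * (W ^ 2 / 4 + (s + u) * |Q|) ^ (j + 1) / l ^ j :=
        (max_le_max_right 0 t1).trans t2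
      have t4 := add_sq_abs_le (a := V) hs
      have t5 : PhY l u η Q (V + s') ≤ K * ((W ^ 2 / 4 + (s + u) * |Q|) ^ (j + 1)
          * (|V| + s) ^ 2) := by
        unfold PhY
        have h6 : (1 + η) ^ 2 * (V + s') ^ 2 ≤ (1 + η) ^ 2 * (|V| + s) ^ 2 :=
          mul_le_mul_of_nonneg_left t4 (sq_nonneg _)
        refine (mul_le_mul h6 t3 (le_max_right _ _) (by positivity)).trans (le_of_eq ?_)
        rw [hK]
        field_simp
      refine (mul_le_mul_of_nonneg_left t5 hwt).trans (le_of_eq ?_)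
      rw [add_pow, Finset.sum_mul, Finset.mul_sum, Finset.mul_sum]
      refine Finset.sum_congr rfl fun i _ => ?_
      have e2 : (W ^ 2 / 4) ^ i = (1 / 4) ^ i * |W| ^ (2 * i) := by
        rw [pow_mul, sq_abs, ← mul_pow]
        congr 1
        ring
      rw [e2, mul_pow]
      ring
  refine h1.trans ?_
  rw [integral_finsetSum _ fun i _ => ((bi i).const_mul _).int]
  have h2 : ∀ i ∈ Finset.range (j + 2), ∫ x, (K * (((j + 1).choose i : ℝ) *
        ((1 / 4) ^ i * (s + u) ^ (j + 1 - i)))) *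
        (wt m T (p x) y * (|xi m T y w (p x)| ^ (2 * i) * |xi m T y N (p x)| ^ (j + 1 - i)
          * (|xi m T y c (p x)| + s) ^ 2)) ∂μ ≤ μ.real univ * (K *
          (((j + 1).choose i : ℝ) * (lam ^ i * (s + u) ^ (j + 1 - i)) * mp2 M (j + 1 + i) s ‖c‖)) := by
    intro i hi
    have hi' : i ≤ j + 1 := by
      have := Finset.mem_range.1 hi
      omega
    rw [integral_const_mul]
    have h3 := hM.sq hp hT hy w N c (2 * i) (j + 1 - i) hs0
    rw [hN, one_pow, mul_one, show 2 * i + (j + 1 - i) = j + 1 + i by omega] at h3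
    have h4 : 0 ≤ K * (((j + 1).choose i : ℝ) * ((1 / 4) ^ i * (s + u) ^ (j + 1 - i))) := by
      positivity
    refine (mul_le_mul_of_nonneg_left h3 h4).trans ?_
    have h5 : (1 / 4 : ℝ) ^ i * ‖w‖ ^ (2 * i) ≤ lam ^ i := by
      rw [pow_mul, ← mul_pow]
      refine pow_le_pow_left₀ (by positivity) ?_ i
      linarith
    have h6 : 0 ≤ mp2 M (j + 1 + i) s ‖c‖ := by
      have a1 := hM0 (j + 1 + i + 2)
      have a2 := hM0 (j + 1 + i + 1)
      have a3 := hM0 (j + 1 + i)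
      unfold mp2
      positivity
    calc K * (((j + 1).choose i : ℝ) * ((1 / 4) ^ i * (s + u) ^ (j + 1 - i))) *
          (μ.real univ * (‖w‖ ^ (2 * i) * mp2 M (j + 1 + i) s ‖c‖))
        = (μ.real univ * (K * (((j + 1).choose i : ℝ) * (s + u) ^ (j + 1 - i)
          * mp2 M (j + 1 + i) s ‖c‖))) * ((1 / 4 : ℝ) ^ i * ‖w‖ ^ (2 * i)) := by ring
      _ ≤ (μ.real univ * (K * (((j + 1).choose i : ℝ) * (s + u) ^ (j + 1 - i)
          * mp2 M (j + 1 + i) s ‖c‖))) * lam ^ i :=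
          mul_le_mul_of_nonneg_left h5 (by positivity)
      _ = _ := by ring
  refine (Finset.sum_le_sum h2).trans (le_of_eq ?_)
  unfold YV
  rw [← Finset.mul_sum, ← Finset.mul_sum]

end

end Vale.Agent.P224.R2.H876
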