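import Vale.Agent.P224.R2.H876.Tl
import Vale.Agent.P224.R2.H876.TlDet2

/-!
The relative tail bound with the smooth cut: the views at a fixed point.
-/

namespace Vale.Agent.P224.R2.H876

open MeasureTheory Set Function Module Vale.Agent.P224 Vale.Agent.P224.SM2
  Vale.Agent.P224.R2.H869 Vale.Agent.P224.R2.H582 Vale.Agent.P224.R2.H484
  Vale.Agent.P224.R2.H728
open scoped RealInnerProductSpace

set_option linter.unusedSectionVars false

/-- the bound of the main part -/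
noncomputable def YV2 (M : ℕ → ℝ) (j : ℕ) (l K s d : ℝ) : ℝ :=
  K * (cc j / l ^ j) * ∑ i ∈ Finset.range (j + 2),
    ((j + 1).choose i : ℝ) * ((d ^ 2 / 4) ^ i * s ^ (j + 1 - i)) * mp2 M (j + 1 + i) s d

/-- the bound of the remainder -/
noncomputable def ZV (M : ℕ → ℝ) (i i' : ℕ) (l η β s d : ℝ) : ℝ :=
  β ^ (i + 1) / (2 * η ^ 2) * (cc i / l ^ i) * mp2 M (2 * i + 2) s d
    + 2 / β ^ (i' + 1) * (cc i' / l ^ i') * mp2 M (2 * i' + 2) s d

section

variable {X : Type*} [MeasurableSpace X] {E : Type*} [NormedAddCommGroup E]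
  [InnerProductSpace ℝ E] [MeasurableSpace E] [BorelSpace E] [SecondCountableTopology E]
  {μ : Measure X} [IsFiniteMeasure μ] {m : ℕ} {p n z : X → E}

/-- the main part at a fixed point -/
theorem MomB.main2 {M : ℕ → ℝ} (hM : MomB μ m p M) (hp : FV.Pts p n)
    {T : ℝ} (hT : T ∈ Ico (0 : ℝ) 1) {y : E} (hy : ‖y‖ = 1) {N c : E} (hN : ‖N‖ = 1) (j : ℕ)
    {l η s s' K : ℝ} (hl : 0 < l) (hη : 0 < η) (hη1 : η < 1) (hs : |s'| ≤ s) (hK0 : 0 ≤ K)
    (hK : ∀ ρ, 0 ≤ ρ → ρ ≤ η → 1 - ρ ^ 2 / η ^ 2 ≤ K * (1 - ρ) ^ (2 * j + 4))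
    {P U : X → ℝ} (hPQ : ∀ x, P x - xi m T y N (p x) = U x - (xi m T y c (p x) + s')) :
    ∫ x, wt m T (p x) y * G1 l η (P x) (xi m T y N (p x)) (U x) (xi m T y c (p x) + s') ∂μ
      ≤ μ.real univ * YV2 M j l K s ‖c‖ := by
  have hs0 : 0 ≤ s := (abs_nonneg _).trans hs
  have hA : 0 ≤ μ.real univ := measureReal_nonneg
  have bw := bm_wt (m := m) hp hT hy
  have bN := bm_abs (bm_xi (m := m) hp hT hy N)
  have bc := bm_abs (bm_xi (m := m) hp hT hy c)
  have hcj := cc_nonneg j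
  set K' : ℝ := K * (cc j / l ^ j) with hK'
  have hK'0 : 0 ≤ K' := by positivity
  have bi : ∀ i, BM (fun x => wt m T (p x) y * (|xi m T y c (p x)| ^ (2 * i)
      * |xi m T y N (p x)| ^ (j + 1 - i) * (|xi m T y c (p x)| + s) ^ 2)) := fun i =>
    bw.mul (((bc.pow _).mul (bN.pow _)).mul ((bc.add (BM.const s)).pow 2))
  have h1 : ∫ x, wt m T (p x) y * G1 l η (P x) (xi m T y N (p x)) (U x)
        (xi m T y c (p x) + s') ∂μ
      ≤ ∫ x, ∑ i ∈ Finset.range (j + 2), (K' * (((j + 1).choose i : ℝ) *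
        ((1 / 4) ^ i * s ^ (j + 1 - i)))) *
        (wt m T (p x) y * (|xi m T y c (p x)| ^ (2 * i) * |xi m T y N (p x)| ^ (j + 1 - i)
          * (|xi m T y c (p x)| + s) ^ 2)) ∂μ := by
    refine integral_mono_of_nonneg (Filter.Eventually.of_forall fun x =>
      mul_nonneg (wt_nonneg hT (hp.np x) hy) (G1_nonneg _ _ _ _ _ _)) ?_
      (Filter.Eventually.of_forall fun x => ?_)
    · exact (BM.sum _ fun i _ => (bi i).const_mul _).int
    · have hwt := wt_nonneg (m := m) hT (hp.np x) hy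
      have hPQx := hPQ x
      set Q := xi m T y N (p x) with hQ
      set V := xi m T y c (p x) with hV
      have hB0 : 0 ≤ V ^ 2 / 4 + s * |Q| := by positivity
      have t1 := G1_le hPQx hl hη hη1 j hK0 hK hB0 (fun r hr0 hr1 => by
        have h3 : r * (s' * Q) ≤ s * |Q| := by
          have h4 : s' * Q ≤ s * |Q| := by
            refine (le_abs_self _).trans ?_
            rw [abs_mul]
            exact mul_le_mul_of_nonneg_right hs (abs_nonneg _)
          have h5 : 0 ≤ s * |Q| := by positivity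
          nlinarith
        nlinarith [sq_nonneg (V / 2 - r * Q)])
      have t4 := add_sq_abs_le (a := V) hs
      have t5 : G1 l η (P x) Q (U x) (V + s') ≤ K' * ((V ^ 2 / 4 + s * |Q|) ^ (j + 1)
          * (|V| + s) ^ 2) := by
        refine t1.trans ?_
        have h6 := mul_le_mul_of_nonneg_right t4 (pow_nonneg hB0 (j + 1))
        have h7 := mul_le_mul_of_nonneg_left h6 hK'0
        linarith
      refine (mul_le_mul_of_nonneg_left t5 hwt).trans (le_of_eq ?_)
      rw [add_pow, Finset.sum_mul, Finset.mul_sum, Finset.mul_sum]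
      refine Finset.sum_congr rfl fun i _ => ?_
      have e2 : (V ^ 2 / 4) ^ i = (1 / 4) ^ i * |V| ^ (2 * i) := by
        rw [pow_mul, sq_abs, ← mul_pow]
        congr 1
        ring
      rw [e2, mul_pow]
      ring
  refine h1.trans ?_
  rw [integral_finsetSum _ fun i _ => ((bi i).const_mul _).int]
  have h2 : ∀ i ∈ Finset.range (j + 2), ∫ x, (K' * (((j + 1).choose i : ℝ) *
        ((1 / 4) ^ i * s ^ (j + 1 - i)))) *
        (wt m T (p x) y * (|xi m T y c (p x)| ^ (2 * i) * |xi m T y N (p x)| ^ (j + 1 - i)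
          * (|xi m T y c (p x)| + s) ^ 2)) ∂μ ≤ μ.real univ * (K' *
          (((j + 1).choose i : ℝ) * ((‖c‖ ^ 2 / 4) ^ i * s ^ (j + 1 - i))
            * mp2 M (j + 1 + i) s ‖c‖)) := by
    intro i hi
    have hi' : i ≤ j + 1 := by
      have := Finset.mem_range.1 hi
      omega
    rw [integral_const_mul]
    have h3 := hM.sq hp hT hy c N c (2 * i) (j + 1 - i) hs0
    rw [hN, one_pow, mul_one, show 2 * i + (j + 1 - i) = j + 1 + i by omega] at h3
    have h4 : 0 ≤ K' * (((j + 1).choose i : ℝ) * ((1 / 4) ^ i * s ^ (j + 1 - i))) := by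
      positivity
    refine (mul_le_mul_of_nonneg_left h3 h4).trans (le_of_eq ?_)
    have h5 : (‖c‖ ^ 2 / 4) ^ i = (1 / 4) ^ i * ‖c‖ ^ (2 * i) := by
      rw [pow_mul, ← mul_pow]
      congr 1
      ring
    rw [h5]
    ring
  refine (Finset.sum_le_sum h2).trans (le_of_eq ?_)
  unfold YV2
  rw [← Finset.mul_sum, ← Finset.mul_sum]

/-- one part of the remainder at a fixed point -/
theorem MomB.rem2 {M : ℕ → ℝ} (hM : MomB μ m p M) (hp : FV.Pts p n)
    {T : ℝ} (hT : T ∈ Ico (0 : ℝ) 1) {y : E} (hy : ‖y‖ = 1) {N c : E} (hN : ‖N‖ = 1) (i : ℕ)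
    {l s s' γ : ℝ} (hl : 0 < l) (hs : |s'| ≤ s) (hγ : 0 < γ) :
    ∫ x, wt m T (p x) y * ((xi m T y c (p x) + s') ^ 2 * max (γ * xi m T y N (p x) ^ 2 - l) 0) ∂μ
      ≤ μ.real univ * (γ ^ (i + 1) * (cc i / l ^ i) * mp2 M (2 * i + 2) s ‖c‖) := by
  have hs0 : 0 ≤ s := (abs_nonneg _).trans hs
  have bw := bm_wt (m := m) hp hT hy
  have bN' := bm_abs (bm_xi (m := m) hp hT hy N)
  have bc' := bm_abs (bm_xi (m := m) hp hT hy c)
  have hci := cc_nonneg i
  have h1 : ∫ x, wt m T (p x) y * ((xi m T y c (p x) + s') ^ 2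
        * max (γ * xi m T y N (p x) ^ 2 - l) 0) ∂μ
      ≤ ∫ x, γ ^ (i + 1) * (cc i / l ^ i) * (wt m T (p x) y * (|xi m T y N (p x)| ^ (2 * i + 2)
        * |xi m T y N (p x)| ^ 0 * (|xi m T y c (p x)| + s) ^ 2)) ∂μ := by
    refine integral_mono_of_nonneg (Filter.Eventually.of_forall fun x =>
      mul_nonneg (wt_nonneg hT (hp.np x) hy) (by positivity)) ?_
      (Filter.Eventually.of_forall fun x => ?_)
    · exact ((bw.mul (((bN'.pow _).mul (bN'.pow 0)).mul ((bc'.add (BM.const s)).pow 2))).int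
        (μ := μ)).const_mul _
    · have hw := wt_nonneg (m := m) hT (hp.np x) hy
      set Q := xi m T y N (p x) with hQ
      set V := xi m T y c (p x) with hV
      have t1 := tail_pow i (X := γ * Q ^ 2) (l := l) (by positivity) hl
      have t2 := add_sq_abs_le (a := V) hs
      have t3 : (V + s') ^ 2 * max (γ * Q ^ 2 - l) 0 ≤ γ ^ (i + 1) * (cc i / l ^ i)
          * (|Q| ^ (2 * i + 2) * |Q| ^ 0 * (|V| + s) ^ 2) := by
        have e1 : |Q| ^ (2 * i + 2) = (Q ^ 2) ^ (i + 1) := by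
          rw [show 2 * i + 2 = 2 * (i + 1) by ring, pow_mul, sq_abs]
        rw [e1]
        refine (mul_le_mul t2 t1 (by positivity) (by positivity)).trans (le_of_eq ?_)
        rw [mul_pow]
        field_simp
      calc wt m T (p x) y * ((V + s') ^ 2 * max (γ * Q ^ 2 - l) 0)
          ≤ wt m T (p x) y * (γ ^ (i + 1) * (cc i / l ^ i)
          * (|Q| ^ (2 * i + 2) * |Q| ^ 0 * (|V| + s) ^ 2)) := mul_le_mul_of_nonneg_left t3 hw
        _ = _ := by ring
  refine h1.trans ?_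
  rw [integral_const_mul]
  have h2 := hM.sq hp hT hy N N c (2 * i + 2) 0 hs0
  have h3 : 0 ≤ γ ^ (i + 1) * (cc i / l ^ i) := by positivity
  refine (mul_le_mul_of_nonneg_left h2 h3).trans (le_of_eq ?_)
  rw [hN, one_pow, one_pow, add_zero]
  ring

/-- the remainder at a fixed point -/
theorem MomB.rem {M : ℕ → ℝ} (hM : MomB μ m p M) (hp : FV.Pts p n)
    {T : ℝ} (hT : T ∈ Ico (0 : ℝ) 1) {y : E} (hy : ‖y‖ = 1) {N c : E} (hN : ‖N‖ = 1) (i i' : ℕ)
    {l s s' η β : ℝ} (hl : 0 < l) (hs : |s'| ≤ s) (hη : 0 < η) (hβ : 0 < β) :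
    ∫ x, wt m T (p x) y * G2 l η β (xi m T y N (p x)) (xi m T y c (p x) + s') ∂μ
      ≤ μ.real univ * ZV M i i' l η β s ‖c‖ := by
  have bw := bm_wt (m := m) hp hT hy
  have bN := bm_xi (m := m) hp hT hy N
  have bc := (bm_xi (m := m) hp hT hy c).add (BM.const s')
  have r1 := hM.rem2 hp hT hy hN i hl hs hβ (c := c)
  have r2 := hM.rem2 hp hT hy hN i' hl hs (inv_pos.2 hβ) (c := c)
  have b1 : BM (fun x => wt m T (p x) y * ((xi m T y c (p x) + s') ^ 2
      * max (β * xi m T y N (p x) ^ 2 - l) 0)) :=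
    bw.mul ((bc.pow 2).mul (bm_max (((bN.pow 2).const_mul β).sub (BM.const l)) (BM.const 0)))
  have b2 : BM (fun x => wt m T (p x) y * ((xi m T y c (p x) + s') ^ 2
      * max (β⁻¹ * xi m T y N (p x) ^ 2 - l) 0)) :=
    bw.mul ((bc.pow 2).mul (bm_max (((bN.pow 2).const_mul β⁻¹).sub (BM.const l)) (BM.const 0)))
  have e : ∀ x, wt m T (p x) y * G2 l η β (xi m T y N (p x)) (xi m T y c (p x) + s')
      = 1 / (2 * η ^ 2) * (wt m T (p x) y * ((xi m T y c (p x) + s') ^ 2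
        * max (β * xi m T y N (p x) ^ 2 - l) 0))
      + 2 * (wt m T (p x) y * ((xi m T y c (p x) + s') ^ 2
        * max (β⁻¹ * xi m T y N (p x) ^ 2 - l) 0)) := by
    intro x
    unfold G2
    rw [div_eq_mul_inv (xi m T y N (p x) ^ 2) β, mul_comm (xi m T y N (p x) ^ 2) β⁻¹]
    ring
  simp_rw [e]
  rw [integral_add (b1.int.const_mul _) (b2.int.const_mul _), integral_const_mul,
    integral_const_mul]
  have q1 := mul_le_mul_of_nonneg_left r1 (by positivity : (0 : ℝ) ≤ 1 / (2 * η ^ 2))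
  have q2 := mul_le_mul_of_nonneg_left r2 (by positivity : (0 : ℝ) ≤ 2)
  refine (add_le_add q1 q2).trans (le_of_eq ?_)
  unfold ZV
  rw [inv_pow]
  field_simp

end

end Vale.Agent.P224.R2.H876
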